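import Vale.Agent.Lib.P170.Defs

open Filter Topology

namespace Vale.Agent.Lib.P170

open Finset

variable {k n N : ℕ}

lemma card_clause (k n : ℕ) : Fintype.card (ProperClause k n) = n.choose k * 2 ^ k := by
  rw [Fintype.card_sigma]
  have h2 : ∀ S : {S : Finset (Fin n) // S.card = k}, Fintype.card (S.1 → Bool) = 2 ^ k := by
    intro S
    simp [S.2]
  simp only [h2]
  simp [Fintype.card_finset_len]

/-- Push a clause forward along an embedding of the variables. -/
noncomputable def mapClause (e : Fin n ↪ Fin N) (C : ProperClause k n) : ProperClause k N :=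
  ⟨⟨C.1.1.map e, by simpa using C.1.2⟩, fun v =>
    C.2 ⟨(Finset.mem_map.1 v.2).choose, (Finset.mem_map.1 v.2).choose_spec.1⟩⟩

lemma mapClause_sign (e : Fin n ↪ Fin N) (C : ProperClause k n) (u : C.1.1)
    (h : e u.1 ∈ (mapClause e C).1.1) :
    (mapClause e C).2 ⟨e u.1, h⟩ = C.2 u := by
  have h1 := (Finset.mem_map.1 h).choose_spec.2
  have h2 : (Finset.mem_map.1 h).choose = u.1 := e.injective h1
  show C.2 ⟨(Finset.mem_map.1 h).choose, _⟩ = C.2 u
  exact congrArg C.2 (Subtype.ext h2)

lemma satBy_map (e : Fin n ↪ Fin N) (C : ProperClause k n) (σ : Fin N → Bool) :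
    (mapClause e C).SatBy σ ↔ C.SatBy (σ ∘ e) := by
  constructor
  · rintro ⟨v, hv⟩
    have hmem := Finset.mem_map.1 v.2
    refine ⟨⟨hmem.choose, hmem.choose_spec.1⟩, ?_⟩
    have h3 : e hmem.choose = v.1 := hmem.choose_spec.2
    exact (congrArg σ h3).trans hv
  · rintro ⟨u, hu⟩
    have hm : e u.1 ∈ (mapClause e C).1.1 := Finset.mem_map_of_mem e u.2
    refine ⟨⟨e u.1, hm⟩, ?_⟩
    rw [mapClause_sign e C u hm]
    exact hu

lemma mapClause_injective (e : Fin n ↪ Fin N) :
    Function.Injective (mapClause (k := k) e) := by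
  intro C D h
  have h1 : C.1.1.map e = D.1.1.map e := by
    have := congrArg (fun C : ProperClause k N => C.1.1) h
    simpa [mapClause] using this
  have h2 : C.1.1 = D.1.1 := Finset.map_injective e h1
  have h2' : C.1 = D.1 := Subtype.ext h2
  obtain ⟨S, f⟩ := C
  obtain ⟨T, g⟩ := D
  simp only at h2'
  subst h2'
  have h3 : f = g := by
    funext u
    have hm : e u.1 ∈ (S.1.map e) := Finset.mem_map_of_mem e u.2
    have h4 := mapClause_sign e (⟨S, f⟩ : ProperClause k n) u hm
    have h5 := mapClause_sign e (⟨S, g⟩ : ProperClause k n) u hm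
    have h6 : ∀ (C : ProperClause k N) (_ : C = mapClause e (⟨S, f⟩ : ProperClause k n))
        (hh : e u.1 ∈ C.1.1), C.2 ⟨e u.1, hh⟩ = f u := by
      intro C hC hh
      subst hC
      exact h4
    have h7 := h6 (mapClause e (⟨S, g⟩ : ProperClause k n)) h.symm hm
    rw [← h7]
    exact h5
  subst h3
  rfl

/-- Number of satisfiable `j`-tuples of clauses on `n` variables. -/
noncomputable def S (k n j : ℕ) : ℕ := Nat.card {F : Fin j → ProperClause k n // FormulaSat F}

lemma satProb_eq (k n m : ℕ) :
    satProb k n m = (S k n m : ℝ) / (Fintype.card (ProperClause k n) : ℝ) ^ m := by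
  classical
  unfold satProb S
  congr 2
  rw [Nat.card_eq_fintype_card, Fintype.card_subtype]

lemma count_congr {ι ι' : Type} (e : ι ≃ ι') :
    Nat.card {F : ι → ProperClause k n // FormulaSat F} =
      Nat.card {F : ι' → ProperClause k n // FormulaSat F} := by
  apply Nat.card_congr
  refine Equiv.subtypeEquiv (Equiv.arrowCongr e (Equiv.refl _)) ?_
  intro F
  constructor
  · rintro ⟨σ, h⟩
    exact ⟨σ, fun i => by simpa [Equiv.arrowCongr] using h (e.symm i)⟩
  · rintro ⟨σ, h⟩
    refine ⟨σ, fun i => ?_⟩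
    have := h (e i)
    simpa [Equiv.arrowCongr] using this

/-- Range of the push-forward of clauses. -/
def Inside (e : Fin n ↪ Fin N) (C : ProperClause k N) : Prop := ∃ D : ProperClause k n, mapClause e D = C

lemma card_outside (e : Fin n ↪ Fin N) :
    Nat.card {C : ProperClause k N // ¬ Inside e C} =
      Fintype.card (ProperClause k N) - Fintype.card (ProperClause k n) := by
  classical
  rw [Nat.card_eq_fintype_card, Fintype.card_subtype_compl]
  congr 1
  have : Fintype.card (ProperClause k n) = Fintype.card {C : ProperClause k N // Inside e C} := by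
    apply Fintype.card_congr
    refine Equiv.ofBijective (fun D => ⟨mapClause e D, ⟨D, rfl⟩⟩) ⟨?_, ?_⟩
    · intro a b h
      exact mapClause_injective e (congrArg Subtype.val h)
    · rintro ⟨C, D, rfl⟩
      exact ⟨D, rfl⟩
  exact this.symm

lemma card_le_of_emb (e : Fin n ↪ Fin N) :
    Fintype.card (ProperClause k n) ≤ Fintype.card (ProperClause k N) :=
  Fintype.card_le_of_injective _ (mapClause_injective e)

/-- The fibre data in the main counting inequality. -/
noncomputable def fibreMap (e : Fin n ↪ Fin N) {m : ℕ}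
    (F : {F : Fin m → ProperClause k N // FormulaSat F}) :
    Σ A : Finset (Fin m),
      ({G : A → ProperClause k n // FormulaSat G} ×
        ({i // i ∉ A} → {C : ProperClause k N // ¬ Inside e C})) := by
  classical
  refine ⟨Finset.univ.filter (fun i => Inside e (F.1 i)), ?_, ?_⟩
  · refine ⟨fun i => Classical.choose ((Finset.mem_filter.1 i.2).2), ?_⟩
    obtain ⟨σ, hσ⟩ := F.2
    refine ⟨σ ∘ e, fun i => ?_⟩
    have hi := Classical.choose_spec ((Finset.mem_filter.1 i.2).2)
    have := hσ i.1
    rw [← hi] at this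
    exact (satBy_map e _ σ).1 this
  · intro i
    refine ⟨F.1 i.1, fun h => i.2 ?_⟩
    exact Finset.mem_filter.2 ⟨Finset.mem_univ _, h⟩

lemma fibreMap_fst (e : Fin n ↪ Fin N) {m : ℕ}
    (F : {F : Fin m → ProperClause k N // FormulaSat F}) (i : Fin m) :
    i ∈ (fibreMap e F).1 ↔ Inside e (F.1 i) := by
  classical
  simp [fibreMap]

open Classical in
/-- Recover a clause tuple from its fibre data. -/
noncomputable def fibreVal (e : Fin n ↪ Fin N) {m : ℕ}
    (x : Σ A : Finset (Fin m),
      ({G : A → ProperClause k n // FormulaSat G} ×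
        ({i // i ∉ A} → {C : ProperClause k N // ¬ Inside e C}))) (i : Fin m) :
    ProperClause k N :=
  if h : i ∈ x.1 then mapClause e (x.2.1.1 ⟨i, h⟩) else (x.2.2 ⟨i, h⟩).1

lemma fibreVal_fibreMap (e : Fin n ↪ Fin N) {m : ℕ}
    (F : {F : Fin m → ProperClause k N // FormulaSat F}) (i : Fin m) :
    fibreVal e (fibreMap e F) i = F.1 i := by
  classical
  unfold fibreVal
  by_cases h : i ∈ (fibreMap e F).1
  · rw [dif_pos h]
    have hh := (fibreMap_fst e F i).1 h
    exact Classical.choose_spec (Finset.mem_filter.1 h).2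
  · rw [dif_neg h]
    rfl

lemma fibreMap_injective (e : Fin n ↪ Fin N) {m : ℕ} :
    Function.Injective (fibreMap (k := k) e (m := m)) := by
  intro F F' h
  apply Subtype.ext
  funext i
  rw [← fibreVal_fibreMap e F i, ← fibreVal_fibreMap e F' i, h]

/-- The main counting inequality: delete all clauses that use a variable outside the image of `e`. -/
lemma S_le_sum (e : Fin n ↪ Fin N) (m : ℕ) :
    S k N m ≤ ∑ j ∈ Finset.range (m + 1), m.choose j *
      (S k n j * (Fintype.card (ProperClause k N) - Fintype.card (ProperClause k n)) ^ (m - j)) := by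
  classical
  have h1 := Nat.card_le_card_of_injective _ (fibreMap_injective (k := k) e (m := m))
  refine h1.trans ?_
  rw [Nat.card_sigma]
  have h2 : ∀ A : Finset (Fin m),
      Nat.card ({G : A → ProperClause k n // FormulaSat G} ×
        ({i // i ∉ A} → {C : ProperClause k N // ¬ Inside e C})) =
      S k n A.card * (Fintype.card (ProperClause k N) - Fintype.card (ProperClause k n)) ^
        (m - A.card) := by
    intro A
    rw [Nat.card_prod, Nat.card_fun, card_outside]
    have e1 : Nat.card {G : A → ProperClause k n // FormulaSat G} = S k n A.card :=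
      count_congr A.equivFin
    have e2 : Nat.card {i // i ∉ A} = m - A.card := by
      rw [Nat.card_eq_fintype_card, Fintype.card_subtype_compl]
      simp
    rw [e1, e2]
  simp only [h2]
  have h3 := Finset.sum_powerset_apply_card
    (fun j => S k n j * (Fintype.card (ProperClause k N) - Fintype.card (ProperClause k n)) ^ (m - j))
    (x := (Finset.univ : Finset (Fin m)))
  simp only [Finset.powerset_univ, Finset.card_univ, Fintype.card_fin, smul_eq_mul] at h3
  exact h3.le

lemma satProb_nonneg (k n m : ℕ) : 0 ≤ satProb k n m := by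
  unfold satProb
  positivity

lemma S_le (k n m : ℕ) : S k n m ≤ (Fintype.card (ProperClause k n)) ^ m := by
  classical
  unfold S
  rw [Nat.card_eq_fintype_card, Fintype.card_subtype]
  refine (Finset.card_filter_le _ _).trans ?_
  simp

lemma satProb_le_one (k n m : ℕ) : satProb k n m ≤ 1 := by
  rw [satProb_eq]
  apply div_le_one_of_le₀
  · exact_mod_cast S_le k n m
  · positivity

lemma S_succ_le (k n m : ℕ) :
    S k n (m + 1) ≤ S k n m * Fintype.card (ProperClause k n) := by
  classical
  unfold S
  have : Nat.card {F : Fin m → ProperClause k n // FormulaSat F} * Fintype.card (ProperClause k n)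
      = Nat.card ({F : Fin m → ProperClause k n // FormulaSat F} × ProperClause k n) := by
    rw [Nat.card_prod, Nat.card_eq_fintype_card (α := ProperClause k n)]
  rw [this]
  refine Nat.card_le_card_of_injective
    (fun F => (⟨fun i => F.1 i.castSucc, ?_⟩, F.1 (Fin.last m))) ?_
  · obtain ⟨σ, hσ⟩ := F.2
    exact ⟨σ, fun i => hσ _⟩
  · intro F F' h
    apply Subtype.ext
    funext i
    have h1 := congrArg Prod.fst h
    have h2 := congrArg Prod.snd h
    have h1' := congrArg Subtype.val h1
    refine Fin.lastCases ?_ (fun j => ?_) i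
    · exact h2
    · exact congrFun h1' j

lemma satProb_succ_le (hM : 0 < Fintype.card (ProperClause k n)) (m : ℕ) :
    satProb k n (m + 1) ≤ satProb k n m := by
  rw [satProb_eq, satProb_eq]
  have hM' : (0 : ℝ) < (Fintype.card (ProperClause k n) : ℝ) := by exact_mod_cast hM
  rw [div_le_div_iff₀ (by positivity) (by positivity)]
  have h := S_succ_le k n m
  have h' : (S k n (m + 1) : ℝ) ≤ S k n m * (Fintype.card (ProperClause k n) : ℝ) := by
    exact_mod_cast h
  calc (S k n (m + 1) : ℝ) * (Fintype.card (ProperClause k n) : ℝ) ^ m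
      ≤ (S k n m * (Fintype.card (ProperClause k n) : ℝ)) * (Fintype.card (ProperClause k n) : ℝ) ^ m :=
        mul_le_mul_of_nonneg_right h' (by positivity)
    _ = _ := by ring

lemma satProb_antitone (hM : 0 < Fintype.card (ProperClause k n)) :
    Antitone (fun m => satProb k n m) :=
  antitone_nat_of_succ_le (fun m => satProb_succ_le hM m)

/-- Lower comparison: formulas on the small variable set stay satisfiable on the large one. -/
lemma S_le_S (e : Fin n ↪ Fin N) (m : ℕ) : S k n m ≤ S k N m := by
  unfold S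
  refine Nat.card_le_card_of_injective
    (fun F => ⟨fun i => mapClause e (F.1 i), ?_⟩) ?_
  · obtain ⟨σ, hσ⟩ := F.2
    refine ⟨Function.extend e σ (fun _ => true), fun i => (satBy_map e _ _).2 ?_⟩
    have : (Function.extend e σ (fun _ => true)) ∘ e = σ := by
      funext x
      exact e.injective.extend_apply _ _ x
    rw [this]
    exact hσ i
  · intro F F' h
    apply Subtype.ext
    funext i
    exact mapClause_injective e (congrFun (congrArg Subtype.val h) i)

/-- `q = M_n / M_N`. -/
noncomputable def ratio (k n N : ℕ) : ℝ :=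
  (Fintype.card (ProperClause k n) : ℝ) / (Fintype.card (ProperClause k N) : ℝ)

lemma satProb_lower (e : Fin n ↪ Fin N) (m : ℕ) :
    ratio k n N ^ m * satProb k n m ≤ satProb k N m := by
  rw [satProb_eq, satProb_eq, ratio, div_pow]
  by_cases hn : Fintype.card (ProperClause k n) = 0
  · simp only [hn]
    rcases m with _ | m
    · simp only [pow_zero, Nat.cast_zero]
      have : (S k n 0 : ℝ) ≤ S k N 0 := by exact_mod_cast S_le_S e 0
      simpa using this
    · simp only [Nat.cast_zero, zero_pow (Nat.succ_ne_zero m), zero_div, zero_mul]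
      positivity
  · have hn' : (0 : ℝ) < (Fintype.card (ProperClause k n) : ℝ) := by
      exact_mod_cast Nat.pos_of_ne_zero hn
    have hN' : (0 : ℝ) < (Fintype.card (ProperClause k N) : ℝ) := by
      have := card_le_of_emb (k := k) e
      have h2 : 0 < Fintype.card (ProperClause k N) := lt_of_lt_of_le (Nat.pos_of_ne_zero hn) this
      exact_mod_cast h2
    have h : (S k n m : ℝ) ≤ S k N m := by exact_mod_cast S_le_S e m
    have : ((Fintype.card (ProperClause k n) : ℝ) ^ m / (Fintype.card (ProperClause k N) : ℝ) ^ m) *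
        ((S k n m : ℝ) / (Fintype.card (ProperClause k n) : ℝ) ^ m) =
        (S k n m : ℝ) / (Fintype.card (ProperClause k N) : ℝ) ^ m := by
      field_simp
    rw [this]
    exact div_le_div_of_nonneg_right h (by positivity)

/-- Mixture bound: the satisfiability probability on `N` variables is at most the average of the
probabilities on `n` variables over the binomial number of clauses inside the image of `e`. -/
lemma satProb_upper (e : Fin n ↪ Fin N) (hn : 0 < Fintype.card (ProperClause k n)) (m : ℕ) :
    satProb k N m ≤ ∑ j ∈ Finset.range (m + 1), (m.choose j : ℝ) *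
      (ratio k n N) ^ j * (1 - ratio k n N) ^ (m - j) * satProb k n j := by
  have hle := card_le_of_emb (k := k) e
  have hn' : (0 : ℝ) < (Fintype.card (ProperClause k n) : ℝ) := by exact_mod_cast hn
  have hN' : (0 : ℝ) < (Fintype.card (ProperClause k N) : ℝ) := by
    have h2 : 0 < Fintype.card (ProperClause k N) := lt_of_lt_of_le hn hle
    exact_mod_cast h2
  rw [satProb_eq]
  have h1 : ((S k N m : ℕ) : ℝ) ≤ ((∑ j ∈ Finset.range (m + 1), m.choose j *
      (S k n j * (Fintype.card (ProperClause k N) - Fintype.card (ProperClause k n)) ^ (m - j)) : ℕ) : ℝ) := by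
    exact_mod_cast S_le_sum (k := k) e m
  rw [div_le_iff₀ (by positivity)]
  refine h1.trans (le_of_eq ?_)
  push_cast [Nat.cast_sub hle]
  rw [Finset.sum_mul]
  apply Finset.sum_congr rfl
  intro j hj
  have hj' : j ≤ m := Nat.lt_succ_iff.1 (Finset.mem_range.1 hj)
  rw [satProb_eq, ratio]
  have hsub : (m - j) + j = m := Nat.sub_add_cancel hj'
  have h4 : (1 - (Fintype.card (ProperClause k n) : ℝ) / (Fintype.card (ProperClause k N) : ℝ)) =
      ((Fintype.card (ProperClause k N) : ℝ) - (Fintype.card (ProperClause k n) : ℝ)) /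
        (Fintype.card (ProperClause k N) : ℝ) := by
    field_simp
  rw [h4, div_pow, div_pow]
  have h5 : (Fintype.card (ProperClause k N) : ℝ) ^ m =
      (Fintype.card (ProperClause k N) : ℝ) ^ (m - j) * (Fintype.card (ProperClause k N) : ℝ) ^ j := by
    rw [← pow_add, hsub]
  rw [h5]
  field_simp

/-- Chebyshev for the binomial mixture. -/
lemma binomial_mix_le {m : ℕ} {q : ℝ} (hq0 : 0 ≤ q) (hq1 : q ≤ 1) (f : ℕ → ℝ)
    (hf0 : ∀ j, 0 ≤ f j) (hf1 : ∀ j, f j ≤ 1) (hf : Antitone f) {J : ℕ} (hJ : (J : ℝ) < m * q) :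
    ∑ j ∈ Finset.range (m + 1), (m.choose j : ℝ) * q ^ j * (1 - q) ^ (m - j) * f j
      ≤ f J + (m * q * (1 - q)) / (m * q - J) ^ 2 := by
  have hb : ∀ j, (m.choose j : ℝ) * q ^ j * (1 - q) ^ (m - j) =
      Polynomial.eval q (bernsteinPolynomial ℝ m j) := by
    intro j
    simp [bernsteinPolynomial]
  have hsum : ∑ j ∈ Finset.range (m + 1), (m.choose j : ℝ) * q ^ j * (1 - q) ^ (m - j) = 1 := by
    have := congrArg (Polynomial.eval q) (bernsteinPolynomial.sum ℝ m)
    simp only [Polynomial.eval_finsetSum, Polynomial.eval_one] at this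
    exact (Finset.sum_congr rfl (fun j _ => hb j)).trans this
  have hvar : ∑ j ∈ Finset.range (m + 1), (m * q - j) ^ 2 *
      ((m.choose j : ℝ) * q ^ j * (1 - q) ^ (m - j)) = m * q * (1 - q) := by
    have := congrArg (Polynomial.eval q) (bernsteinPolynomial.variance ℝ m)
    simp only [Polynomial.eval_finsetSum, Polynomial.eval_mul, Polynomial.eval_pow,
      Polynomial.eval_sub, Polynomial.eval_X, Polynomial.eval_natCast,
      Polynomial.eval_one, nsmul_eq_mul] at this
    refine Eq.trans ?_ this
    refine Finset.sum_congr rfl (fun j _ => ?_)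
    rw [hb j]
  have hpos : 0 < (m * q - J) := by linarith
  have hterm : ∀ j ∈ Finset.range (m + 1),
      (m.choose j : ℝ) * q ^ j * (1 - q) ^ (m - j) * f j ≤
        f J * ((m.choose j : ℝ) * q ^ j * (1 - q) ^ (m - j)) +
          ((m * q - j) ^ 2 * ((m.choose j : ℝ) * q ^ j * (1 - q) ^ (m - j))) / (m * q - J) ^ 2 := by
    intro j _
    have hbn : 0 ≤ (m.choose j : ℝ) * q ^ j * (1 - q) ^ (m - j) := by
      have : 0 ≤ 1 - q := by linarith
      positivity
    rcases le_or_gt J j with hjJ | hjJ
    · have h1 : f j ≤ f J := hf hjJ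
      have h2 : 0 ≤ ((m * q - j) ^ 2 * ((m.choose j : ℝ) * q ^ j * (1 - q) ^ (m - j))) / (m * q - J) ^ 2 := by
        positivity
      nlinarith
    · have hjJ' : (j : ℝ) ≤ J := by exact_mod_cast hjJ.le
      have h1 : (m * q - J) ^ 2 ≤ (m * q - j) ^ 2 := by
        apply pow_le_pow_left₀ hpos.le
        linarith
      have h2 : 1 ≤ (m * q - j) ^ 2 / (m * q - J) ^ 2 := by
        rw [one_le_div (by positivity)]
        exact h1
      have h3 : ((m * q - j) ^ 2 * ((m.choose j : ℝ) * q ^ j * (1 - q) ^ (m - j))) / (m * q - J) ^ 2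
          = ((m.choose j : ℝ) * q ^ j * (1 - q) ^ (m - j)) * ((m * q - j) ^ 2 / (m * q - J) ^ 2) := by
        ring
      rw [h3]
      have h4 : f J * ((m.choose j : ℝ) * q ^ j * (1 - q) ^ (m - j)) ≥ 0 :=
        mul_nonneg (hf0 J) hbn
      have h5 := hf1 j
      nlinarith
  refine (Finset.sum_le_sum hterm).trans (le_of_eq ?_)
  rw [Finset.sum_add_distrib, ← Finset.mul_sum, hsum, mul_one, ← Finset.sum_div, hvar]


/-- Clauses satisfied by a fixed assignment: at most `M - C(n,k)`. -/
lemma card_good (σ : Fin n → Bool) :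
    Nat.card {C : ProperClause k n // C.SatBy σ} ≤
      Fintype.card (ProperClause k n) - n.choose k := by
  classical
  have hbad : n.choose k ≤ Nat.card {C : ProperClause k n // ¬ C.SatBy σ} := by
    have hc : Nat.card {S : Finset (Fin n) // S.card = k} = n.choose k := by
      rw [Nat.card_eq_fintype_card, Fintype.card_finset_len]
      simp
    rw [← hc]
    refine Nat.card_le_card_of_injective
      (fun S => ⟨⟨S, fun v => !(σ v.1)⟩, ?_⟩) ?_
    · rintro ⟨v, hv⟩
      simp at hv
    · intro S T h
      have h1 := congrArg Subtype.val h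
      exact congrArg Sigma.fst h1
  have htot : Nat.card {C : ProperClause k n // C.SatBy σ} +
      Nat.card {C : ProperClause k n // ¬ C.SatBy σ} = Fintype.card (ProperClause k n) := by
    rw [Nat.card_eq_fintype_card, Nat.card_eq_fintype_card]
    have h1 := Fintype.card_subtype_compl (fun C : ProperClause k n => C.SatBy σ)
    have h2 := Fintype.card_subtype_le (fun C : ProperClause k n => C.SatBy σ)
    omega
  omega

lemma S_le_first_moment (k n m : ℕ) :
    S k n m ≤ 2 ^ n * (Fintype.card (ProperClause k n) - n.choose k) ^ m := by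
  classical
  unfold S
  have hinj : Function.Injective
      (fun F : {F : Fin m → ProperClause k n // FormulaSat F} =>
        (⟨Classical.choose F.2, fun i => ⟨F.1 i, Classical.choose_spec F.2 i⟩⟩ :
          Σ σ : Fin n → Bool, (Fin m → {C : ProperClause k n // C.SatBy σ}))) := by
    intro F F' h
    apply Subtype.ext
    funext i
    have h0 : Classical.choose F.2 = Classical.choose F'.2 := congrArg Sigma.fst h
    have key : ∀ (x : Σ σ : Fin n → Bool, (Fin m → {C : ProperClause k n // C.SatBy σ})),
        x = (⟨Classical.choose F'.2, fun i => ⟨F'.1 i, Classical.choose_spec F'.2 i⟩⟩ :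
          Σ σ : Fin n → Bool, (Fin m → {C : ProperClause k n // C.SatBy σ})) →
        (x.2 i).1 = F'.1 i := by
      intro x hx
      subst hx
      rfl
    exact key _ h
  refine (Nat.card_le_card_of_injective _ hinj).trans ?_
  rw [Nat.card_sigma]
  have h2 : ∀ σ : Fin n → Bool, Nat.card (Fin m → {C : ProperClause k n // C.SatBy σ}) ≤
      (Fintype.card (ProperClause k n) - n.choose k) ^ m := by
    intro σ
    rw [Nat.card_fun]
    simp only [Nat.card_eq_fintype_card (α := Fin m), Fintype.card_fin]
    exact Nat.pow_le_pow_left (card_good σ) m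
  refine (Finset.sum_le_sum (fun σ _ => h2 σ)).trans (le_of_eq ?_)
  simp

/-- The classical first-moment bound. -/
lemma satProb_first_moment (hM : n.choose k ≠ 0) (m : ℕ) :
    satProb k n m ≤ 2 ^ n * (1 - (1 / 2 : ℝ) ^ k) ^ m := by
  rw [satProb_eq]
  have hcard := card_clause k n
  have hpos : 0 < n.choose k := Nat.pos_of_ne_zero hM
  have hM' : (0 : ℝ) < (Fintype.card (ProperClause k n) : ℝ) := by
    rw [hcard]
    positivity
  rw [div_le_iff₀ (by positivity)]
  have h := S_le_first_moment k n m
  have hle : n.choose k ≤ Fintype.card (ProperClause k n) := by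
    rw [hcard]
    exact Nat.le_mul_of_pos_right _ (by positivity)
  have h' : (S k n m : ℝ) ≤ 2 ^ n * ((Fintype.card (ProperClause k n) : ℝ) - (n.choose k : ℝ)) ^ m := by
    have : ((S k n m : ℕ) : ℝ) ≤ ((2 ^ n * (Fintype.card (ProperClause k n) - n.choose k) ^ m : ℕ) : ℝ) := by
      exact_mod_cast h
    rw [Nat.cast_mul, Nat.cast_pow, Nat.cast_pow, Nat.cast_sub hle] at this
    simpa using this
  refine h'.trans (le_of_eq ?_)
  rw [mul_assoc, ← mul_pow]
  congr 3
  rw [hcard]
  push_cast
  have : (2 : ℝ) ^ k * (1 / 2 : ℝ) ^ k = 1 := by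
    rw [← mul_pow]
    norm_num
  have hc : ((n.choose k : ℝ) * 2 ^ k) * (1 / 2 : ℝ) ^ k = (n.choose k : ℝ) := by
    rw [mul_assoc, this, mul_one]
  nlinarith

/-- The embedding of the first `n` variables in the first `N` variables. -/
def emb (h : n ≤ N) : Fin n ↪ Fin N := Fin.castLEEmb h

lemma card_pos_of_le (hk : k ≤ n) : 0 < Fintype.card (ProperClause k n) := by
  rw [card_clause]
  have := Nat.choose_pos hk
  positivity

lemma ratio_nonneg (k n N : ℕ) : 0 ≤ ratio k n N := by
  unfold ratio
  positivity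

lemma ratio_le_one (hnN : n ≤ N) (hk : k ≤ n) : ratio k n N ≤ 1 := by
  unfold ratio
  have hM := card_pos_of_le (k := k) (hk.trans hnN)
  have h2 := card_le_of_emb (k := k) (emb hnN)
  apply div_le_one_of_le₀
  · exact_mod_cast h2
  · positivity

/-- The one line consequence of the mixture bound and Chebyshev. -/
lemma key_upper (hnN : n ≤ N) (hk : k ≤ n) {m J : ℕ} (hJ : (J : ℝ) < m * ratio k n N) :
    satProb k N m ≤ satProb k n J +
      (m * ratio k n N * (1 - ratio k n N)) / (m * ratio k n N - J) ^ 2 := by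
  have hM := card_pos_of_le (k := k) hk
  refine (satProb_upper (emb hnN) hM m).trans ?_
  exact binomial_mix_le (ratio_nonneg k n N) (ratio_le_one hnN hk)
    (fun j => satProb k n j) (satProb_nonneg k n) (satProb_le_one k n) (satProb_antitone hM) hJ

lemma ratio_succ (hkn : k ≤ n) :
    ratio k n (n + 1) = 1 - (k : ℝ) / (n + 1) := by
  unfold ratio
  rw [card_clause, card_clause]
  have h1 : n.choose k * (n + 1) = (n + 1).choose k * (n + 1 - k) := Nat.choose_mul_succ_eq n k
  have h2 : (0 : ℝ) < ((n + 1).choose k : ℝ) := by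
    exact_mod_cast Nat.choose_pos (by omega : k ≤ n + 1)
  have h3 : ((n.choose k : ℝ)) * (n + 1) = ((n + 1).choose k : ℝ) * ((n : ℝ) + 1 - k) := by
    have : ((n.choose k * (n + 1) : ℕ) : ℝ) = (((n + 1).choose k * (n + 1 - k) : ℕ) : ℝ) := by
      exact_mod_cast h1
    rw [Nat.cast_mul, Nat.cast_mul, Nat.cast_sub (by omega : k ≤ n + 1)] at this
    push_cast at this
    linarith
  push_cast
  have h4 : (0 : ℝ) < (n : ℝ) + 1 := by positivity
  have h5 : (0 : ℝ) < 2 ^ k := by positivity
  field_simp
  nlinarith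

lemma ratio_lower (hk : 1 ≤ k) (hkn : k ≤ n) (hnN : n ≤ N) :
    (((n : ℝ) + 1 - k) / N) ^ k ≤ ratio k n N := by
  unfold ratio
  rw [card_clause, card_clause]
  have hN : (0 : ℝ) < (N : ℝ) := by
    have : 0 < N := by omega
    exact_mod_cast this
  have hc : (0 : ℝ) < (N.choose k : ℝ) := by exact_mod_cast Nat.choose_pos (hkn.trans hnN)
  have hf : (0 : ℝ) < (k.factorial : ℝ) := by exact_mod_cast Nat.factorial_pos k
  have h1 : (n.choose k : ℝ) = (n.descFactorial k : ℝ) / k.factorial := by
    rw [Nat.descFactorial_eq_factorial_mul_choose]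
    push_cast
    field_simp
  have h2 : (N.choose k : ℝ) = (N.descFactorial k : ℝ) / k.factorial := by
    rw [Nat.descFactorial_eq_factorial_mul_choose]
    push_cast
    field_simp
  have h3 : (((n + 1 - k) ^ k : ℕ) : ℝ) ≤ (n.descFactorial k : ℝ) := by
    exact_mod_cast Nat.pow_sub_le_descFactorial n k
  have h4 : (N.descFactorial k : ℝ) ≤ ((N ^ k : ℕ) : ℝ) := by
    exact_mod_cast Nat.descFactorial_le_pow N k
  have h5 : (0 : ℝ) < (N.descFactorial k : ℝ) := by
    exact_mod_cast Nat.descFactorial_pos.2 (hkn.trans hnN)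
  have h6 : ((n : ℝ) + 1 - k) = ((n + 1 - k : ℕ) : ℝ) := by
    rw [Nat.cast_sub (by omega : k ≤ n + 1)]
    push_cast
    ring
  have hrew : ((n.choose k : ℝ) * 2 ^ k) / ((N.choose k : ℝ) * 2 ^ k) =
      (n.descFactorial k : ℝ) / (N.descFactorial k : ℝ) := by
    rw [h1, h2]
    field_simp
  push_cast
  rw [hrew, h6, div_pow]
  have h7 : (((n + 1 - k : ℕ) : ℝ)) ^ k ≤ (n.descFactorial k : ℝ) := by
    exact_mod_cast h3
  have h8 : (N.descFactorial k : ℝ) ≤ (N : ℝ) ^ k := by
    exact_mod_cast h4
  exact div_le_div₀ (by positivity) h7 h5 h8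

lemma one_sub_ge_exp {x : ℝ} (hx0 : 0 ≤ x) (hx1 : x ≤ 1 / 2) : Real.exp (-(2 * x)) ≤ 1 - x := by
  have h1 : 1 + 2 * x ≤ Real.exp (2 * x) := by
    have := Real.add_one_le_exp (2 * x)
    linarith
  have h2 : 1 ≤ (1 - x) * Real.exp (2 * x) := by
    have h3 : 1 ≤ (1 - x) * (1 + 2 * x) := by nlinarith
    have h4 : (1 - x) * (1 + 2 * x) ≤ (1 - x) * Real.exp (2 * x) :=
      mul_le_mul_of_nonneg_left h1 (by linarith)
    linarith
  rw [Real.exp_neg]
  have h5 : 0 < Real.exp (2 * x) := Real.exp_pos _
  rw [inv_eq_one_div, div_le_iff₀ h5]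
  exact h2

end Vale.Agent.Lib.P170
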