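import Mathlib

open Filter Topology

namespace Vale.Agent.Lib.P170

/-- A proper `k`-clause on the Boolean variables `Fin n`: a `k`-subset of the variables together
with a sign for each chosen variable. -/
abbrev ProperClause (k n : ℕ) : Type :=
  Σ S : {S : Finset (Fin n) // S.card = k}, (S.1 → Bool)

/-- The assignment `σ` satisfies the clause `C`: some chosen variable has the value asked by `C`. -/
def ProperClause.SatBy {k n : ℕ} (C : ProperClause k n) (σ : Fin n → Bool) : Prop :=
  ∃ v : C.1.1, σ v.1 = C.2 v

/-- A conjunction of clauses (indexed by `ι`) is satisfiable. -/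
def FormulaSat {k n : ℕ} {ι : Type} (F : ι → ProperClause k n) : Prop :=
  ∃ σ : Fin n → Bool, ∀ i, (F i).SatBy σ

open Classical in
/-- `P_{k,n}(m)`: the probability that `m` independent uniform proper `k`-clauses on `n` variables
have a satisfiable conjunction (number of satisfiable `m`-tuples divided by the number of `m`-tuples). -/
noncomputable def satProb (k n m : ℕ) : ℝ :=
  ((Finset.univ.filter (fun F : Fin m → ProperClause k n => FormulaSat F)).card : ℝ) /
    (Fintype.card (ProperClause k n) : ℝ) ^ m

/-- `r` is a threshold sequence for random `k`-SAT in the sense of Friedgut's theorem. -/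
def IsThresholdSeq (k : ℕ) (r : ℕ → ℝ) : Prop :=
  ∀ ε : ℝ, 0 < ε →
    Tendsto (fun n : ℕ => satProb k n ⌊(r n - ε) * n⌋₊) atTop (𝓝 1) ∧
    Tendsto (fun n : ℕ => satProb k n ⌊(r n + ε) * n⌋₊) atTop (𝓝 0)

end Vale.Agent.Lib.P170
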