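import Vale.Agent.Lib.P170.Variation

open Filter Topology

namespace Vale.Agent.Lib.P170

variable {k : ℕ} {r : ℕ → ℝ}

/-- Threshold sequences are eventually bounded above (first moment). -/
lemma eventually_le_K (_hk : 1 ≤ k) (hr : IsThresholdSeq k r) :
    ∃ K : ℝ, 0 < K ∧ ∀ᶠ n : ℕ in atTop, r n ≤ K := by
  set a : ℝ := 1 - (1 / 2 : ℝ) ^ k with ha
  have ha0 : 0 ≤ a := by
    have : (1 / 2 : ℝ) ^ k ≤ 1 := pow_le_one₀ (by norm_num) (by norm_num)
    linarith
  have ha1 : a < 1 := by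
    have : (0 : ℝ) < (1 / 2 : ℝ) ^ k := by positivity
    linarith
  obtain ⟨K, hK⟩ : ∃ K : ℕ, 2 * a ^ K ≤ 1 / 2 := by
    have := (tendsto_pow_atTop_nhds_zero_of_lt_one ha0 ha1)
    have h2 : ∀ᶠ K : ℕ in atTop, a ^ K < 1 / 4 := this.eventually (gt_mem_nhds (by norm_num))
    obtain ⟨K, hK⟩ := h2.exists
    exact ⟨K, by linarith⟩
  refine ⟨(K : ℝ) + 2, by positivity, ?_⟩
  have h1 := (hr 1 one_pos).1
  have h2 : ∀ᶠ n : ℕ in atTop, (1 / 2 : ℝ) < satProb k n ⌊(r n - 1) * n⌋₊ :=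
    h1.eventually (lt_mem_nhds (by norm_num))
  filter_upwards [h2, eventually_ge_atTop k, eventually_ge_atTop 1] with n hn hkn hn1
  by_contra hcon
  push Not at hcon
  have hm : K * n ≤ ⌊(r n - 1) * n⌋₊ := by
    apply Nat.le_floor
    push_cast
    have hnn : (0 : ℝ) ≤ n := by positivity
    nlinarith
  have hM := card_pos_of_le (k := k) hkn
  have h3 : satProb k n ⌊(r n - 1) * n⌋₊ ≤ satProb k n (K * n) := satProb_antitone hM hm
  have h4 := satProb_first_moment (k := k) (n := n) (Nat.choose_pos hkn).ne' (K * n)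
  rw [← ha] at h4
  have h5 : (2 : ℝ) ^ n * a ^ (K * n) = (2 * a ^ K) ^ n := by
    rw [mul_pow, ← pow_mul, mul_comm K n]
  have h6 : (2 * a ^ K) ^ n ≤ 1 / 2 := by
    have h7 : 0 ≤ 2 * a ^ K := by positivity
    calc (2 * a ^ K) ^ n ≤ (2 * a ^ K) ^ 1 :=
          pow_le_pow_of_le_one h7 (by linarith) hn1
      _ = 2 * a ^ K := pow_one _
      _ ≤ 1 / 2 := hK
  rw [h5] at h4
  linarith

/-- `r n + ε` is eventually positive (a tautological clause-free formula is satisfiable). -/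
lemma eventually_pos (hr : IsThresholdSeq k r) {ε : ℝ} (hε : 0 < ε) :
    ∀ᶠ n : ℕ in atTop, 1 ≤ (r n + ε) * n := by
  have h2 := (hr ε hε).2
  have h3 : ∀ᶠ n : ℕ in atTop, satProb k n ⌊(r n + ε) * n⌋₊ < 1 / 2 :=
    h2.eventually (gt_mem_nhds (by norm_num))
  filter_upwards [h3] with n hn
  by_contra hcon
  push Not at hcon
  have h4 : ⌊(r n + ε) * n⌋₊ = 0 := Nat.floor_eq_zero.2 hcon
  rw [h4] at hn
  have h5 : satProb k n 0 = 1 := by
    rw [satProb_eq, pow_zero, div_one]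
    have : S k n 0 = 1 := by
      unfold S
      rw [Nat.card_eq_one_iff_unique]
      refine ⟨⟨fun a b => Subtype.ext (Subsingleton.elim _ _)⟩, ⟨⟨Fin.elim0, ?_⟩⟩⟩
      exact ⟨fun _ => true, fun i => i.elim0⟩
    rw [this]
    simp
  rw [h5] at hn
  norm_num at hn

set_option maxHeartbeats 1000000 in
/-- Going up is limited: `r N ≤ (N/n)^(k-1) r n + ε` uniformly for `n ≤ N ≤ C n`. -/
lemma up_bound (hk : 1 ≤ k) (hr : IsThresholdSeq k r) {C : ℝ} (hC : 1 ≤ C) {ε : ℝ} (hε : 0 < ε) :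
    ∀ᶠ n : ℕ in atTop, ∀ N : ℕ, n ≤ N → (N : ℝ) ≤ C * n →
      r N ≤ ((N : ℝ) / n) ^ (k - 1) * r n + ε := by
  obtain ⟨K, hK0, hK⟩ := eventually_le_K hk hr
  set A : ℝ := C ^ (k - 1) with hA
  have hA1 : 1 ≤ A := one_le_pow₀ hC
  have hA0 : 0 < A := by linarith
  set ε' : ℝ := ε / (8 * A) with hε'
  have hε'0 : 0 < ε' := by positivity
  set δ : ℝ := ε / (4 * A) with hδ
  have hδ0 : 0 < δ := by positivity
  have e1 : ε / A = 8 * ε' := by rw [hε']; field_simp
  have e2 : δ = 2 * ε' := by rw [hδ, hε']; field_simp; norm_num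
  have hprob1 : ∀ᶠ n : ℕ in atTop, (3 / 4 : ℝ) < satProb k n ⌊(r n - ε') * n⌋₊ :=
    (hr ε' hε'0).1.eventually (lt_mem_nhds (by norm_num))
  have hprob2 : ∀ᶠ n : ℕ in atTop, satProb k n ⌊(r n + ε') * n⌋₊ < 1 / 8 :=
    (hr ε' hε'0).2.eventually (gt_mem_nhds (by norm_num))
  have hpos := eventually_pos hr hε'0
  obtain ⟨n0, hn0⟩ := eventually_atTop.1 (hprob1.and (hprob2.and (hpos.and hK)))
  -- size conditions on `n`
  have hs1 : ∀ᶠ n : ℕ in atTop, (k : ℝ) ^ 2 * (K + ε + ε') / ε' ≤ (n : ℝ) :=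
    tendsto_natCast_atTop_atTop.eventually_ge_atTop _
  have hs2 : ∀ᶠ n : ℕ in atTop, 1 / ε' ≤ (n : ℝ) :=
    tendsto_natCast_atTop_atTop.eventually_ge_atTop _
  have hs3 : ∀ᶠ n : ℕ in atTop, 9 * (K * C) / δ ^ 2 ≤ (n : ℝ) :=
    tendsto_natCast_atTop_atTop.eventually_ge_atTop _
  have hs4 : ∀ᶠ n : ℕ in atTop, (k : ℝ) ^ 2 ≤ (n : ℝ) :=
    tendsto_natCast_atTop_atTop.eventually_ge_atTop _
  filter_upwards [eventually_ge_atTop n0, eventually_ge_atTop k, eventually_ge_atTop 1,
    hs1, hs2, hs3, hs4] with n hn hkn hn1 hs1 hs2 hs3 hs4 N hnN hNC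
  obtain ⟨-, hP2, hP3, hKn⟩ := hn0 n hn
  obtain ⟨hP1, -, -, hKN⟩ := hn0 N (hn.trans hnN)
  by_contra hcon
  push Not at hcon
  have hnpos : (0 : ℝ) < n := by exact_mod_cast hn1
  have hNpos : (0 : ℝ) < N := by
    have : (n : ℝ) ≤ N := by exact_mod_cast hnN
    linarith
  have hnNr : (n : ℝ) ≤ N := by exact_mod_cast hnN
  set x : ℝ := (n : ℝ) / N with hx
  have hx0 : 0 < x := by positivity
  have hx1 : x ≤ 1 := by
    rw [hx, div_le_one hNpos]
    exact hnNr
  have hxC : 1 / C ≤ x := by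
    rw [hx, div_le_div_iff₀ (by linarith) hNpos]
    linarith
  have hy : (N : ℝ) / n = x⁻¹ := by
    rw [hx, inv_div]
  rw [hy] at hcon
  have hpow : 1 / A ≤ x ^ (k - 1) := by
    rw [hA, ← one_div_pow]
    exact pow_le_pow_left₀ (by positivity) hxC _
  have hpow1 : x ^ (k - 1) ≤ 1 := pow_le_one₀ hx0.le hx1
  have hpow0 : 0 < x ^ (k - 1) := by positivity
  -- the basic inequality between `r N` and `r n`
  have hrr : r n + 8 * ε' ≤ x ^ (k - 1) * r N := by
    have h1 : x ^ (k - 1) * ((x⁻¹) ^ (k - 1) * r n + ε) ≤ x ^ (k - 1) * r N :=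
      mul_le_mul_of_nonneg_left hcon.le hpow0.le
    have h2 : x ^ (k - 1) * (x⁻¹) ^ (k - 1) = 1 := by
      rw [← mul_pow, mul_inv_cancel₀ hx0.ne', one_pow]
    have h3 : x ^ (k - 1) * ((x⁻¹) ^ (k - 1) * r n + ε) = r n + x ^ (k - 1) * ε := by
      rw [mul_add, ← mul_assoc, h2, one_mul]
    rw [h3] at h1
    have h4 : ε / A ≤ x ^ (k - 1) * ε := by
      have := mul_le_mul_of_nonneg_right hpow hε.le
      calc ε / A = 1 / A * ε := by ring
        _ ≤ _ := this
    rw [e1] at h4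
    linarith
  -- set up `m`, `J`
  set m := ⌊(r N - ε') * N⌋₊ with hm
  set J := ⌊(r n + ε') * n⌋₊ with hJ
  set q := ratio k n N with hq
  have hrnpos : 0 < r n + ε' := by
    by_contra hh
    push Not at hh
    have : (r n + ε') * n ≤ 0 := mul_nonpos_of_nonpos_of_nonneg hh hnpos.le
    linarith
  have hrN : 0 < r N - ε' := by
    have h1 : 7 * ε' ≤ x ^ (k - 1) * r N := by linarith
    have h2 : 0 < x ^ (k - 1) * r N := by linarith
    have h3 : 0 < r N := (pos_iff_pos_of_mul_pos h2).1 hpow0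
    have h4 : x ^ (k - 1) * r N ≤ 1 * r N := mul_le_mul_of_nonneg_right hpow1 h3.le
    linarith
  have hmlow : (r N - ε') * N - 1 < m := by
    have := Nat.lt_floor_add_one ((r N - ε') * N)
    linarith
  have hmup : (m : ℝ) ≤ (r N - ε') * N := Nat.floor_le (by positivity)
  have hJup : (J : ℝ) ≤ (r n + ε') * n := Nat.floor_le (by positivity)
  -- lower bound on the ratio
  have hkk : (k : ℝ) ≤ (k : ℝ) ^ 2 := by
    have : (1 : ℝ) ≤ k := by exact_mod_cast hk
    nlinarith
  have hqlow : x ^ k * (1 - (k : ℝ) ^ 2 / n) ≤ q := by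
    refine le_trans ?_ (ratio_lower hk hkn hnN)
    have h1 : (((n : ℝ) + 1 - k) / N) = x * (1 - ((k : ℝ) - 1) / n) := by
      rw [hx]
      field_simp
      ring
    rw [h1, mul_pow]
    apply mul_le_mul_of_nonneg_left _ (by positivity)
    have h2 : -2 ≤ -(((k : ℝ) - 1) / n) := by
      have h3 : ((k : ℝ) - 1) / n ≤ 1 := by
        rw [div_le_one hnpos]
        have : (k : ℝ) ≤ n := by exact_mod_cast hkn
        linarith
      linarith
    have hb := one_add_mul_le_pow h2 k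
    have h4 : (1 + -(((k : ℝ) - 1) / n)) = 1 - ((k : ℝ) - 1) / n := by ring
    rw [h4] at hb
    refine le_trans ?_ hb
    have h5 : (k : ℝ) * (((k : ℝ) - 1) / n) ≤ (k : ℝ) ^ 2 / n := by
      have : (k : ℝ) * (((k : ℝ) - 1) / n) = ((k : ℝ) * ((k : ℝ) - 1)) / n := by ring
      rw [this]
      apply div_le_div_of_nonneg_right _ hnpos.le
      have h00 : (k : ℝ) * ((k : ℝ) - 1) = (k : ℝ) ^ 2 - k := by ring
      rw [h00]
      linarith [Nat.cast_nonneg (α := ℝ) k]
    have h6 : (k : ℝ) * -(((k : ℝ) - 1) / n) = -((k : ℝ) * (((k : ℝ) - 1) / n)) := by ring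
    rw [h6]
    linarith
  have hη0 : 0 ≤ (k : ℝ) ^ 2 / n := by positivity
  have hη1 : (k : ℝ) ^ 2 / n ≤ 1 := by
    rw [div_le_one hnpos]
    exact hs4
  have hq0 : 0 ≤ q := ratio_nonneg k n N
  have hq1 : q ≤ 1 := ratio_le_one hnN hkn
  -- the main estimate `m q - J ≥ δ n`
  have hNx : (N : ℝ) * x ^ k = n * x ^ (k - 1) := by
    have hk' : k = (k - 1) + 1 := by omega
    have h1 : x ^ k = x ^ (k - 1) * x := by
      conv_lhs => rw [hk']
      rw [pow_succ]
    rw [h1, hx]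
    field_simp
  have hmq : ((r N - ε') * N - 1) * (x ^ k * (1 - (k : ℝ) ^ 2 / n)) ≤ m * q := by
    have hpart : 0 ≤ x ^ k * (1 - (k : ℝ) ^ 2 / n) := by
      apply mul_nonneg (by positivity)
      linarith
    calc ((r N - ε') * N - 1) * (x ^ k * (1 - (k : ℝ) ^ 2 / n))
        ≤ (m : ℝ) * (x ^ k * (1 - (k : ℝ) ^ 2 / n)) :=
          mul_le_mul_of_nonneg_right hmlow.le hpart
      _ ≤ m * q := mul_le_mul_of_nonneg_left hqlow (by positivity)
  have hxk1 : x ^ k ≤ 1 := pow_le_one₀ hx0.le hx1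
  have hkey : δ * n ≤ m * q - J := by
    have hexp : ((r N - ε') * N - 1) * (x ^ k * (1 - (k : ℝ) ^ 2 / n)) =
        (x ^ (k - 1) * r N - x ^ (k - 1) * ε') * n * (1 - (k : ℝ) ^ 2 / n) -
          x ^ k * (1 - (k : ℝ) ^ 2 / n) := by
      have : ((r N - ε') * N - 1) * (x ^ k * (1 - (k : ℝ) ^ 2 / n)) =
          (r N - ε') * ((N : ℝ) * x ^ k) * (1 - (k : ℝ) ^ 2 / n) -
            x ^ k * (1 - (k : ℝ) ^ 2 / n) := by ring
      rw [this, hNx]
      ring
    rw [hexp] at hmq
    have hx2 : x ^ k * (1 - (k : ℝ) ^ 2 / n) ≤ 1 := by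
      have h1 : 1 - (k : ℝ) ^ 2 / n ≤ 1 := by linarith
      have h0 : 0 ≤ 1 - (k : ℝ) ^ 2 / n := by linarith
      exact mul_le_one₀ hxk1 h0 h1
    have hW : r n + 7 * ε' ≤ x ^ (k - 1) * r N - x ^ (k - 1) * ε' := by
      have : x ^ (k - 1) * ε' ≤ 1 * ε' := mul_le_mul_of_nonneg_right hpow1 hε'0.le
      linarith
    have hWup : x ^ (k - 1) * r N - x ^ (k - 1) * ε' ≤ K := by
      have h1 : r N - ε' ≤ K := by linarith
      have h2 : x ^ (k - 1) * (r N - ε') ≤ 1 * (r N - ε') :=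
        mul_le_mul_of_nonneg_right hpow1 hrN.le
      have h3 : x ^ (k - 1) * r N - x ^ (k - 1) * ε' = x ^ (k - 1) * (r N - ε') := by ring
      rw [h3]
      linarith
    set W := x ^ (k - 1) * r N - x ^ (k - 1) * ε' with hWdef
    have hη2 : (k : ℝ) ^ 2 / n * (K + ε + ε') ≤ ε' := by
      rw [div_mul_eq_mul_div, div_le_iff₀ hnpos]
      rw [div_le_iff₀ hε'0] at hs1
      linarith
    have hη3 : (k : ℝ) ^ 2 / n * K ≤ ε' := by
      have : (k : ℝ) ^ 2 / n * K ≤ (k : ℝ) ^ 2 / n * (K + ε + ε') :=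
        mul_le_mul_of_nonneg_left (by linarith) hη0
      linarith
    have hone : 1 ≤ ε' * n := by
      rw [div_le_iff₀ hε'0] at hs2
      linarith
    have h1 : W * n * (1 - (k : ℝ) ^ 2 / n) = W * n - W * ((k : ℝ) ^ 2 / n * n) := by ring
    have hWK : W * ((k : ℝ) ^ 2 / n) ≤ ε' := by
      have : W * ((k : ℝ) ^ 2 / n) ≤ K * ((k : ℝ) ^ 2 / n) :=
        mul_le_mul_of_nonneg_right hWup hη0
      linarith
    have hA : W * n * (1 - (k : ℝ) ^ 2 / n) ≥ (W - ε') * n := by
      have : W * n * (1 - (k : ℝ) ^ 2 / n) = (W - W * ((k : ℝ) ^ 2 / n)) * n := by ring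
      rw [this]
      exact mul_le_mul_of_nonneg_right (by linarith) hnpos.le
    have hB : (W - ε') * n ≥ (r n + 6 * ε') * n :=
      mul_le_mul_of_nonneg_right (by linarith) hnpos.le
    have hC' : (m : ℝ) * q ≥ (r n + 6 * ε') * n - 1 := by linarith
    have hD : δ * n = 2 * ε' * n := by rw [e2]
    have hE : (m : ℝ) * q - J ≥ (r n + 6 * ε') * n - 1 - (r n + ε') * n := by linarith
    have hF : (r n + 6 * ε') * n - 1 - (r n + ε') * n = 5 * (ε' * n) - 1 := by ring
    have hG : 2 * ε' * n = 2 * (ε' * n) := by ring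
    rw [hD, hG]
    linarith
  -- Chebyshev
  have hJlt : (J : ℝ) < m * q := by
    have : 0 < δ * n := by positivity
    linarith
  have hfin := key_upper hnN hkn hJlt
  have hmK : (m : ℝ) ≤ K * C * n := by
    have h1 : (m : ℝ) ≤ K * N := by
      refine hmup.trans ?_
      exact mul_le_mul_of_nonneg_right (by linarith) hNpos.le
    have h2 : K * N ≤ K * (C * n) := mul_le_mul_of_nonneg_left hNC hK0.le
    have h3 : K * (C * n) = K * C * n := by ring
    linarith
  have herr : (m * q * (1 - q)) / (m * q - J) ^ 2 ≤ 1 / 8 := by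
    have hden : (δ * n) ^ 2 ≤ (m * q - J) ^ 2 := pow_le_pow_left₀ (by positivity) hkey 2
    have hdenpos : 0 < (δ * n) ^ 2 := by positivity
    have hnum : m * q * (1 - q) ≤ K * C * n := by
      have h1 : (m : ℝ) * q * (1 - q) ≤ m * 1 * 1 := by
        apply mul_le_mul _ (by linarith) (by linarith) (by positivity)
        exact mul_le_mul_of_nonneg_left hq1 (by positivity)
      linarith
    have hnum0 : 0 ≤ m * q * (1 - q) := by
      apply mul_nonneg (by positivity) (by linarith)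
    calc (m * q * (1 - q)) / (m * q - J) ^ 2 ≤ (K * C * n) / (δ * n) ^ 2 :=
          div_le_div₀ (by positivity) hnum hdenpos hden
      _ ≤ 1 / 8 := by
          rw [div_le_div_iff₀ hdenpos (by norm_num)]
          rw [div_le_iff₀ (by positivity)] at hs3
          have h1 : 9 * (K * C) * n ≤ n * δ ^ 2 * n := mul_le_mul_of_nonneg_right hs3 hnpos.le
          have h2 : 0 ≤ K * C * n := by positivity
          have h3 : 1 * (δ * n) ^ 2 = n * δ ^ 2 * n := by ring
          rw [h3]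
          have h4 : 9 * (K * C) * n = 9 * (K * C * n) := by ring
          linarith
  have hP2' : satProb k n J < 1 / 8 := hP2
  have hP1' : 3 / 4 < satProb k N m := hP1
  linarith

/-- Iterated form of the stability inequality for a fixed number of clauses. -/
lemma satProb_chain (hk : 1 ≤ k) {n : ℕ} (hkn : 2 * k ≤ n) (hn : 1 ≤ n) {K : ℝ} (hK : 0 < K) {m : ℕ}
    (hm : (m : ℝ) ≤ K * n) (t : ℕ) :
    satProb k n m - (t : ℝ) * (Real.exp (k * K) / (2 * Real.sqrt n)) ≤ satProb k (n + t) m := by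
  induction t with
  | zero => simp
  | succ t ih =>
    have hnpos : (0 : ℝ) < n := by exact_mod_cast hn
    have hk0 : (k : ℝ) ≤ (n : ℝ) / 2 := by
      have : ((2 * k : ℕ) : ℝ) ≤ n := by exact_mod_cast hkn
      push_cast at this
      linarith
    have hstep := abs_diff_le (k := k) (n := n + t) hk (by omega) m
    set N : ℝ := ((n + t : ℕ) : ℝ) with hN
    have hNn : (n : ℝ) ≤ N := by
      rw [hN]
      exact_mod_cast Nat.le_add_right n t
    have hx0 : 0 ≤ (k : ℝ) / (N + 1) := by positivity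
    have hNpos : 0 < N + 1 := by linarith
    have hx1 : (k : ℝ) / (N + 1) ≤ 1 / 2 := by
      rw [div_le_iff₀ hNpos]
      linarith
    have hq := one_sub_ge_exp hx0 hx1
    have hpow : Real.exp (-(2 * (k * K))) ≤ (1 - (k : ℝ) / (N + 1)) ^ m := by
      have h5 : Real.exp (-(2 * ((k : ℝ) / (N + 1)))) ^ m ≤ (1 - (k : ℝ) / (N + 1)) ^ m :=
        pow_le_pow_left₀ (Real.exp_pos _).le hq m
      refine le_trans ?_ h5
      rw [← Real.exp_nat_mul]
      apply Real.exp_le_exp.2
      have h7 : (m : ℝ) * ((k : ℝ) / (N + 1)) ≤ K * (N + 1) * ((k : ℝ) / (N + 1)) := by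
        apply mul_le_mul_of_nonneg_right _ hx0
        have : K * n ≤ K * (N + 1) := mul_le_mul_of_nonneg_left (by linarith) hK.le
        linarith
      have h8 : K * (N + 1) * ((k : ℝ) / (N + 1)) = k * K := by
        field_simp
      have h10 : (m : ℝ) * -(2 * ((k : ℝ) / (N + 1))) = -(2 * ((m : ℝ) * ((k : ℝ) / (N + 1)))) := by
        ring
      rw [h10]
      linarith
    have hmu : (n : ℝ) * Real.exp (-(2 * (k * K))) ≤ (N + 1) * (1 - (k : ℝ) / (N + 1)) ^ m := by
      apply mul_le_mul (by linarith) hpow (Real.exp_pos _).le (by linarith)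
    have hsqrt : Real.sqrt n * Real.exp (-(k * K)) ≤
        Real.sqrt ((N + 1) * (1 - (k : ℝ) / (N + 1)) ^ m) := by
      apply Real.le_sqrt_of_sq_le
      rw [mul_pow, Real.sq_sqrt hnpos.le]
      have h11 : Real.exp (-(k * K)) ^ 2 = Real.exp (-(2 * (k * K))) := by
        rw [← Real.exp_nat_mul]
        congr 1
        push_cast
        ring
      rw [h11]
      exact hmu
    have hs : 0 < Real.sqrt n := Real.sqrt_pos.2 hnpos
    have hbound : 1 / (2 * Real.sqrt ((N + 1) * (1 - (k : ℝ) / (N + 1)) ^ m)) ≤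
        Real.exp (k * K) / (2 * Real.sqrt n) := by
      have hE : Real.exp (k * K) * Real.exp (-(k * K)) = 1 := by
        rw [← Real.exp_add]
        simp
      have hpos : 0 < Real.sqrt n * Real.exp (-(k * K)) := by positivity
      have hb : 1 / (2 * Real.sqrt ((N + 1) * (1 - (k : ℝ) / (N + 1)) ^ m)) ≤
          1 / (2 * (Real.sqrt n * Real.exp (-(k * K)))) := by
        apply one_div_le_one_div_of_le (by positivity)
        linarith
      refine hb.trans (le_of_eq ?_)
      rw [Real.exp_neg]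
      field_simp
    have hab := (abs_le.1 hstep).1
    have e1 : n + (t + 1) = n + t + 1 := by omega
    rw [e1]
    push_cast
    have hh : satProb k (n + t) m - Real.exp (k * K) / (2 * Real.sqrt n) ≤ satProb k (n + t + 1) m := by
      have := hbound
      linarith
    have e2 : ((t : ℝ) + 1) * (Real.exp (k * K) / (2 * Real.sqrt n)) =
        (t : ℝ) * (Real.exp (k * K) / (2 * Real.sqrt n)) + Real.exp (k * K) / (2 * Real.sqrt n) := by
      ring
    rw [e2]
    linarith

/-- One block of length `c √n`: no significant decrease. -/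
lemma block (hk : 1 ≤ k) (hr : IsThresholdSeq k r) :
    ∃ c : ℝ, 0 < c ∧ ∀ ε' : ℝ, 0 < ε' → ∀ᶠ n : ℕ in atTop, ∀ t : ℕ, (t : ℝ) ≤ c * Real.sqrt n →
      r n - r (n + t) ≤ 3 * ε' := by
  obtain ⟨K, hK0, hK⟩ := eventually_le_K hk hr
  refine ⟨Real.exp (-(k * K)) / 2, by positivity, ?_⟩
  intro ε' hε'
  set c : ℝ := Real.exp (-(k * K)) / 2 with hc
  have hc0 : 0 < c := by positivity
  have h1 : ∀ᶠ n : ℕ in atTop, (3 / 4 : ℝ) < satProb k n ⌊(r n - ε') * n⌋₊ :=
    (hr ε' hε').1.eventually (lt_mem_nhds (by norm_num))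
  have h2 : ∀ᶠ n : ℕ in atTop, satProb k n ⌊(r n + ε') * n⌋₊ < 1 / 2 :=
    (hr ε' hε').2.eventually (gt_mem_nhds (by norm_num))
  obtain ⟨n0, hn0⟩ := eventually_atTop.1 (h1.and (h2.and hK))
  have hs1 : ∀ᶠ n : ℕ in atTop, ((1 + (K + ε') * c) / ε') ^ 2 ≤ (n : ℝ) :=
    tendsto_natCast_atTop_atTop.eventually_ge_atTop _
  filter_upwards [eventually_ge_atTop n0, eventually_ge_atTop (2 * k), eventually_ge_atTop 1, hs1]
    with n hn hkn hn1 hs1 t ht
  have hnpos : (0 : ℝ) < n := by exact_mod_cast hn1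
  have hs : 0 < Real.sqrt n := Real.sqrt_pos.2 hnpos
  obtain ⟨hP1, -, hKn⟩ := hn0 n hn
  obtain ⟨-, hP2, hKt⟩ := hn0 (n + t) (hn.trans (Nat.le_add_right n t))
  set m := ⌊(r n - ε') * n⌋₊ with hm
  have hmle : (m : ℝ) ≤ K * n := by
    by_cases hpos : 0 ≤ (r n - ε') * n
    · have := Nat.floor_le hpos
      have h3 : (r n - ε') * n ≤ K * n := mul_le_mul_of_nonneg_right (by linarith) hnpos.le
      linarith
    · push Not at hpos
      rw [hm, Nat.floor_eq_zero.2 (by linarith)]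
      simp only [Nat.cast_zero]
      positivity
  have hch := satProb_chain hk hkn hn1 hK0 hmle t
  have herr : (t : ℝ) * (Real.exp (k * K) / (2 * Real.sqrt n)) ≤ 1 / 4 := by
    have h3 : (t : ℝ) * (Real.exp (k * K) / (2 * Real.sqrt n)) ≤
        (c * Real.sqrt n) * (Real.exp (k * K) / (2 * Real.sqrt n)) :=
      mul_le_mul_of_nonneg_right ht (by positivity)
    have h4 : (c * Real.sqrt n) * (Real.exp (k * K) / (2 * Real.sqrt n)) = 1 / 4 := by
      rw [hc, Real.exp_neg]
      have h5 : Real.exp (k * K) ≠ 0 := (Real.exp_pos _).ne'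
      field_simp
      norm_num
    linarith
  have hPt : (1 / 2 : ℝ) < satProb k (n + t) m := by linarith
  have hM := card_pos_of_le (k := k) (n := n + t) (by omega)
  have hlt : m < ⌊(r (n + t) + ε') * ((n + t : ℕ) : ℝ)⌋₊ := by
    by_contra hcon
    push Not at hcon
    have := satProb_antitone hM hcon
    simp only at this
    linarith
  have hm1 : (r n - ε') * n - 1 < m := by
    have := Nat.lt_floor_add_one ((r n - ε') * n)
    linarith
  have hm2 : (m : ℝ) < (r (n + t) + ε') * ((n : ℝ) + t) := by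
    have h12 : 0 < ⌊(r (n + t) + ε') * ((n + t : ℕ) : ℝ)⌋₊ := by omega
    have h13 := Nat.floor_pos.1 h12
    have h14 := Nat.floor_le (by linarith : 0 ≤ (r (n + t) + ε') * ((n + t : ℕ) : ℝ))
    have h15 : (m : ℝ) < (⌊(r (n + t) + ε') * ((n + t : ℕ) : ℝ)⌋₊ : ℝ) := by exact_mod_cast hlt
    push_cast at h14 h15
    linarith
  -- conclude
  have hKe : 0 < K + ε' := by positivity
  have h16 : (r n - ε') * n - 1 < (r (n + t) + ε') * ((n : ℝ) + t) := by linarith
  have hrt : (r (n + t) + ε') * (t : ℝ) ≤ (K + ε') * (c * Real.sqrt n) := by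
    by_cases hneg : 0 ≤ r (n + t) + ε'
    · exact mul_le_mul (by linarith) ht (by positivity) hKe.le
    · push Not at hneg
      have : (r (n + t) + ε') * (t : ℝ) ≤ 0 :=
        mul_nonpos_of_nonpos_of_nonneg hneg.le (by positivity)
      have h0 : 0 ≤ (K + ε') * (c * Real.sqrt n) := by positivity
      linarith
  have h1s : 1 ≤ Real.sqrt n := by
    rw [Real.one_le_sqrt]
    exact_mod_cast hn1
  have hsq : (1 + (K + ε') * c) / ε' ≤ Real.sqrt n := by
    apply Real.le_sqrt_of_sq_le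
    exact hs1
  have hsq2 : 1 + (K + ε') * c ≤ ε' * Real.sqrt n := by
    rw [div_le_iff₀ hε'] at hsq
    linarith
  have hsqrt : Real.sqrt n * Real.sqrt n = n := Real.mul_self_sqrt hnpos.le
  have hmain : 1 + (K + ε') * (c * Real.sqrt n) ≤ ε' * n := by
    have h2' : (1 + (K + ε') * c) * Real.sqrt n ≤ (ε' * Real.sqrt n) * Real.sqrt n :=
      mul_le_mul_of_nonneg_right hsq2 hs.le
    have h3' : (ε' * Real.sqrt n) * Real.sqrt n = ε' * n := by
      rw [mul_assoc, hsqrt]
    have h4' : (1 + (K + ε') * c) * Real.sqrt n = Real.sqrt n + (K + ε') * (c * Real.sqrt n) := by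
      ring
    rw [h3', h4'] at h2'
    linarith
  have h17 : (r n - r (n + t) - 2 * ε') * n ≤ ε' * n := by
    have e : (r n - r (n + t) - 2 * ε') * n =
        ((r n - ε') * n - 1) - (r (n + t) + ε') * (n : ℝ) + 1 := by ring
    have e2 : (r (n + t) + ε') * ((n : ℝ) + t) = (r (n + t) + ε') * (n : ℝ) + (r (n + t) + ε') * (t : ℝ) := by
      ring
    rw [e]
    linarith
  have h18 : r n - r (n + t) - 2 * ε' ≤ ε' := le_of_mul_le_mul_right h17 hnpos
  linarith

/-- Chaining blocks: no significant decrease on the scale `C √n`. -/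
lemma no_drop (hk : 1 ≤ k) (hr : IsThresholdSeq k r) {C : ℝ} (hC : 0 ≤ C) {ε : ℝ} (hε : 0 < ε) :
    ∀ᶠ n : ℕ in atTop, ∀ t : ℕ, (t : ℝ) ≤ C * Real.sqrt n → r n - r (n + t) ≤ ε := by
  obtain ⟨c, hc0, hblock⟩ := block hk hr
  set J : ℕ := ⌈2 * C / c⌉₊ + 1 with hJ
  have hJpos : (0 : ℝ) < J := by
    rw [hJ]
    positivity
  set ε' : ℝ := ε / (3 * J) with hε'
  have hε'0 : 0 < ε' := by positivity
  obtain ⟨n1, hn1⟩ := eventually_atTop.1 (hblock ε' hε'0)
  have hs : ∀ᶠ n : ℕ in atTop, (2 / c) ^ 2 ≤ (n : ℝ) :=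
    tendsto_natCast_atTop_atTop.eventually_ge_atTop _
  filter_upwards [eventually_ge_atTop n1, hs] with n hn hs t ht
  have hsq : 2 / c ≤ Real.sqrt n := Real.le_sqrt_of_sq_le hs
  have hcs : 2 ≤ c * Real.sqrt n := by
    rw [div_le_iff₀ hc0] at hsq
    linarith
  set t0 : ℕ := ⌊c * Real.sqrt n⌋₊ with ht0
  have ht0up : (t0 : ℝ) ≤ c * Real.sqrt n := Nat.floor_le (by positivity)
  have ht0low : c * Real.sqrt n / 2 ≤ t0 := by
    have := Nat.lt_floor_add_one (c * Real.sqrt n)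
    linarith
  -- the induction
  have hind : ∀ j : ℕ, ∀ n' : ℕ, n ≤ n' → ∀ t' : ℕ, t' ≤ j * t0 →
      r n' - r (n' + t') ≤ 3 * ε' * j := by
    intro j
    induction j with
    | zero =>
      intro n' _ t' ht'
      have : t' = 0 := by simpa using ht'
      subst this
      simp
    | succ j ih =>
      intro n' hn' t' ht'
      set s : ℕ := min t' t0 with hs'
      have hst : s ≤ t' := min_le_left _ _
      have hs0 : s ≤ t0 := min_le_right _ _
      have hsr : (s : ℝ) ≤ c * Real.sqrt n' := by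
        have h1 : (s : ℝ) ≤ t0 := by exact_mod_cast hs0
        have h2 : Real.sqrt n ≤ Real.sqrt n' := Real.sqrt_le_sqrt (by exact_mod_cast hn')
        have h3 : c * Real.sqrt n ≤ c * Real.sqrt n' := mul_le_mul_of_nonneg_left h2 hc0.le
        linarith
      have hb1 := hn1 n' (hn.trans' (by omega) |>.trans hn') s hsr
      have hrest : t' - s ≤ j * t0 := by
        by_cases hcase : t' ≤ t0
        · have : s = t' := min_eq_left hcase
          omega
        · have : s = t0 := min_eq_right (by omega)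
          have e : (j + 1) * t0 = j * t0 + t0 := by ring
          omega
      have hb2 := ih (n' + s) (by omega) (t' - s) hrest
      have e3 : n' + s + (t' - s) = n' + t' := by omega
      rw [e3] at hb2
      push_cast
      have e4 : 3 * ε' * ((j : ℝ) + 1) = 3 * ε' * j + 3 * ε' := by ring
      rw [e4]
      linarith
  have hJt : t ≤ J * t0 := by
    have h1 : (t : ℝ) ≤ (J : ℝ) * t0 := by
      refine ht.trans ?_
      have h2 : 2 * C / c ≤ J := by
        rw [hJ]
        push_cast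
        have := Nat.le_ceil (2 * C / c)
        linarith
      have h3 : (2 * C / c) * (c * Real.sqrt n / 2) ≤ (J : ℝ) * t0 :=
        mul_le_mul h2 ht0low (by positivity) (by positivity)
      have h4 : (2 * C / c) * (c * Real.sqrt n / 2) = C * Real.sqrt n := by
        field_simp
      linarith
    exact_mod_cast h1
  have hfin := hind J n le_rfl t hJt
  have e5 : 3 * ε' * (J : ℝ) = ε := by
    rw [hε']
    field_simp
  rw [e5] at hfin
  exact hfin

/-- No significant increase on the scale `C √n` either (from `up_bound`). -/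
lemma no_rise (hk : 1 ≤ k) (hr : IsThresholdSeq k r) {C : ℝ} (hC : 0 ≤ C) {ε : ℝ} (hε : 0 < ε) :
    ∀ᶠ n : ℕ in atTop, ∀ t : ℕ, (t : ℝ) ≤ C * Real.sqrt n → r (n + t) - r n ≤ ε := by
  obtain ⟨K, hK0, hK⟩ := eventually_le_K hk hr
  have hu := up_bound hk hr (C := 2) (by norm_num) (ε := ε / 2) (by positivity)
  have hone : Tendsto (fun n : ℕ => (1 + C / Real.sqrt n) ^ (k - 1)) atTop (𝓝 1) := by
    have h0 : Tendsto (fun n : ℕ => Real.sqrt (n : ℝ)) atTop atTop :=
      Real.tendsto_sqrt_atTop.comp tendsto_natCast_atTop_atTop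
    have h1 : Tendsto (fun n : ℕ => 1 + C / Real.sqrt n) atTop (𝓝 (1 + 0)) :=
      tendsto_const_nhds.add (h0.const_div_atTop C)
    have h2 := h1.pow (k - 1)
    simpa using h2
  have hsmall : ∀ᶠ n : ℕ in atTop, (1 + C / Real.sqrt n) ^ (k - 1) < 1 + ε / (2 * K) := by
    have hpos : (1 : ℝ) < 1 + ε / (2 * K) := by
      have : 0 < ε / (2 * K) := by positivity
      linarith
    exact hone.eventually (gt_mem_nhds hpos)
  have hs2 : ∀ᶠ n : ℕ in atTop, C ≤ Real.sqrt n := by
    have h0 : Tendsto (fun n : ℕ => Real.sqrt (n : ℝ)) atTop atTop :=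
      Real.tendsto_sqrt_atTop.comp tendsto_natCast_atTop_atTop
    exact h0.eventually_ge_atTop C
  filter_upwards [hu, hK, hsmall, hs2, eventually_ge_atTop 1] with n hun hKn hsm hs2 hn1 t ht
  have hnpos : (0 : ℝ) < n := by exact_mod_cast hn1
  have hs : 0 < Real.sqrt n := Real.sqrt_pos.2 hnpos
  have hsqrt : Real.sqrt n * Real.sqrt n = n := Real.mul_self_sqrt hnpos.le
  have htn : (t : ℝ) ≤ n := by
    refine ht.trans ?_
    have : C * Real.sqrt n ≤ Real.sqrt n * Real.sqrt n := mul_le_mul_of_nonneg_right hs2 hs.le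
    linarith
  have h1 := hun (n + t) (Nat.le_add_right n t) (by
    push_cast
    linarith)
  have hx : (((n + t : ℕ) : ℝ) / n) = 1 + (t : ℝ) / n := by
    push_cast
    field_simp
  rw [hx] at h1
  have hratio : (t : ℝ) / n ≤ C / Real.sqrt n := by
    rw [div_le_div_iff₀ hnpos hs]
    have : C * (n : ℝ) = C * Real.sqrt n * Real.sqrt n := by
      rw [mul_assoc, hsqrt]
    rw [this]
    exact mul_le_mul_of_nonneg_right ht hs.le
  have htn0 : 0 ≤ (t : ℝ) / n := by positivity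
  have hpow1 : 1 ≤ (1 + (t : ℝ) / n) ^ (k - 1) := one_le_pow₀ (by linarith)
  have hpow2 : (1 + (t : ℝ) / n) ^ (k - 1) ≤ (1 + C / Real.sqrt n) ^ (k - 1) :=
    pow_le_pow_left₀ (by linarith) (by linarith) _
  set x := (1 + (t : ℝ) / n) ^ (k - 1) with hxdef
  have h2 : x * r n ≤ r n + ε / 2 := by
    have h3 : (x - 1) * r n ≤ (x - 1) * K := mul_le_mul_of_nonneg_left hKn (by linarith)
    have h4 : (x - 1) * K ≤ ε / (2 * K) * K := mul_le_mul_of_nonneg_right (by linarith) hK0.le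
    have h5 : ε / (2 * K) * K = ε / 2 := by
      field_simp
    have h6 : x * r n = (x - 1) * r n + r n := by ring
    linarith
  linarith

end Vale.Agent.Lib.P170
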