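import Vale.Agent.Lib.P170.Basic

open Filter Topology

namespace Vale.Agent.Lib.P170

open Finset

variable {k n N : ℕ}

lemma card_avoid (A : Finset (Fin N)) :
    Fintype.card {C : ProperClause k N // Disjoint C.1.1 A} = (N - A.card).choose k * 2 ^ k := by
  classical
  let e : {C : ProperClause k N // Disjoint C.1.1 A} ≃
      Σ S : {S : {S : Finset (Fin N) // S.card = k} // Disjoint S.1 A}, (S.1.1 → Bool) :=
    { toFun := fun C => ⟨⟨C.1.1, C.2⟩, C.1.2⟩
      invFun := fun x => ⟨⟨x.1.1, x.2⟩, x.1.2⟩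
      left_inv := fun C => rfl
      right_inv := fun x => rfl }
  rw [Fintype.card_congr e, Fintype.card_sigma]
  have h : ∀ S : {S : {S : Finset (Fin N) // S.card = k} // Disjoint S.1 A},
      Fintype.card (S.1.1 → Bool) = 2 ^ k := by
    intro S
    simp [S.1.2]
  simp only [h]
  rw [Finset.sum_const, smul_eq_mul]
  congr 1
  have e2 : {S : {S : Finset (Fin N) // S.card = k} // Disjoint S.1 A} ≃
      {S // S ∈ Finset.powersetCard k (Aᶜ)} :=
    { toFun := fun S => ⟨S.1.1, by
        refine Finset.mem_powersetCard.2 ⟨?_, S.1.2⟩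
        intro x hx
        exact Finset.mem_compl.2 (Finset.disjoint_left.1 S.2 hx)⟩
      invFun := fun S => ⟨⟨S.1, (Finset.mem_powersetCard.1 S.2).2⟩, by
        rw [Finset.disjoint_left]
        intro x hx
        exact Finset.mem_compl.1 ((Finset.mem_powersetCard.1 S.2).1 hx)⟩
      left_inv := fun S => rfl
      right_inv := fun S => rfl }
  rw [Finset.card_univ, Fintype.card_congr e2, Fintype.card_coe, Finset.card_powersetCard,
    Finset.card_compl, Fintype.card_fin]

/-- `v` is not used by the clause `C`. -/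
def Avoids (C : ProperClause k N) (v : Fin N) : Prop := v ∉ C.1.1

lemma card_formula_avoid {m : ℕ} (A : Finset (Fin N)) :
    Fintype.card {F : Fin m → ProperClause k N // ∀ i, Disjoint (F i).1.1 A} =
      ((N - A.card).choose k * 2 ^ k) ^ m := by
  classical
  rw [Fintype.card_congr (Equiv.subtypePiEquivPi (β := fun _ => ProperClause k N)
    (p := fun _ C => Disjoint C.1.1 A))]
  rw [Fintype.card_pi]
  simp [card_avoid]

/-- The number of variables used by no clause of `F`. -/
noncomputable def untouched {m : ℕ} (F : Fin m → ProperClause k N) : ℕ := by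
  classical
  exact (Finset.univ.filter (fun v : Fin N => ∀ i, v ∉ (F i).1.1)).card

/-- Formulas avoiding `v` are exactly the formulas on the other variables. -/
lemma card_sat_avoid {m : ℕ} (v : Fin (n + 1)) :
    Nat.card {F : Fin m → ProperClause k (n + 1) // FormulaSat F ∧ ∀ i, v ∉ (F i).1.1} =
      S k n m := by
  classical
  set e : Fin n ↪ Fin (n + 1) := Fin.succAboveEmb v with he
  have hav : ∀ D : ProperClause k n, v ∉ (mapClause e D).1.1 := by
    intro D hv
    obtain ⟨x, -, hx⟩ := Finset.mem_map.1 hv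
    exact (Fin.succAbove_ne v x) hx
  -- surjectivity of `mapClause e` onto clauses avoiding `v`
  have hsurj : ∀ C : ProperClause k (n + 1), v ∉ C.1.1 → ∃ D : ProperClause k n, mapClause e D = C := by
    let f : ProperClause k n → {C : ProperClause k (n + 1) // Disjoint C.1.1 {v}} :=
      fun D => ⟨mapClause e D, by
        rw [Finset.disjoint_singleton_right]
        exact hav D⟩
    have hfinj : Function.Injective f := by
      intro a b h
      exact mapClause_injective e (congrArg Subtype.val h)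
    have hcard : Fintype.card (ProperClause k n) =
        Fintype.card {C : ProperClause k (n + 1) // Disjoint C.1.1 {v}} := by
      rw [card_avoid, card_clause]
      simp
    have hb := (Fintype.bijective_iff_injective_and_card f).2 ⟨hfinj, hcard⟩
    intro C hC
    obtain ⟨D, hD⟩ := hb.2 ⟨C, by
      rw [Finset.disjoint_singleton_right]
      exact hC⟩
    exact ⟨D, congrArg Subtype.val hD⟩
  symm
  unfold S
  apply Nat.card_congr
  refine Equiv.ofBijective (fun G => ⟨fun i => mapClause e (G.1 i), ?_, fun i => hav _⟩) ⟨?_, ?_⟩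
  · obtain ⟨σ, hσ⟩ := G.2
    refine ⟨Function.extend e σ (fun _ => true), fun i => (satBy_map e _ _).2 ?_⟩
    have : (Function.extend e σ (fun _ => true)) ∘ e = σ := by
      funext x
      exact e.injective.extend_apply _ _ x
    rw [this]
    exact hσ i
  · intro G G' h
    apply Subtype.ext
    funext i
    exact mapClause_injective e (congrFun (congrArg Subtype.val h) i)
  · rintro ⟨F, ⟨σ, hσ⟩, hF⟩
    choose G hG using fun i => hsurj (F i) (hF i)
    refine ⟨⟨G, σ ∘ e, fun i => ?_⟩, ?_⟩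
    · have := hσ i
      rw [← hG i] at this
      exact (satBy_map e _ σ).1 this
    · apply Subtype.ext
      funext i
      exact hG i

open Classical in
lemma sum_ind {m : ℕ} (A : Finset (Fin N)) :
    ∑ F : Fin m → ProperClause k N, (if ∀ i, Disjoint (F i).1.1 A then (1 : ℝ) else 0) =
      (((N - A.card).choose k : ℝ) * 2 ^ k) ^ m := by
  rw [Finset.sum_boole]
  have h := card_formula_avoid (k := k) (m := m) A
  rw [Fintype.card_subtype] at h
  rw [h]
  push_cast
  ring

open Classical in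
/-- indicator that the formula avoids the variable -/
noncomputable def ind {m : ℕ} (F : Fin m → ProperClause k N) (v : Fin N) : ℝ :=
  if ∀ i, v ∉ (F i).1.1 then 1 else 0

lemma untouched_eq {m : ℕ} (F : Fin m → ProperClause k N) :
    (untouched F : ℝ) = ∑ v, ind F v := by
  classical
  unfold untouched ind
  rw [Finset.sum_boole]

lemma ind_mul {m : ℕ} (F : Fin m → ProperClause k N) (v w : Fin N) :
    ind F v * ind F w = (if ∀ i, Disjoint (F i).1.1 {v, w} then (1 : ℝ) else 0) := by
  classical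
  unfold ind
  have h : (∀ i, Disjoint (F i).1.1 {v, w}) ↔ ((∀ i, v ∉ (F i).1.1) ∧ (∀ i, w ∉ (F i).1.1)) := by
    constructor
    · intro h
      constructor
      · intro i hv
        have := Finset.disjoint_left.1 (h i) hv
        simp at this
      · intro i hv
        have := Finset.disjoint_left.1 (h i) hv
        simp at this
    · rintro ⟨h1, h2⟩ i
      rw [Finset.disjoint_left]
      intro x hx hx2
      simp only [Finset.mem_insert, Finset.mem_singleton] at hx2
      rcases hx2 with rfl | rfl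
      · exact h1 i hx
      · exact h2 i hx
  by_cases h1 : ∀ i, v ∉ (F i).1.1
  · by_cases h2 : ∀ i, w ∉ (F i).1.1
    · rw [if_pos h1, if_pos h2, if_pos (h.2 ⟨h1, h2⟩), mul_one]
    · rw [if_neg h2, if_neg (fun hh => h2 (h.1 hh).2), mul_zero]
  · rw [if_neg h1, if_neg (fun hh => h1 (h.1 hh).1), zero_mul]

/-- First moment of the number of untouched variables. -/
lemma sum_untouched {m : ℕ} :
    ∑ F : Fin m → ProperClause k (n + 1), (untouched F : ℝ) =
      (n + 1) * (((n.choose k : ℝ)) * 2 ^ k) ^ m := by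
  classical
  simp only [untouched_eq]
  rw [Finset.sum_comm]
  have h : ∀ v : Fin (n + 1), ∑ F : Fin m → ProperClause k (n + 1), ind F v =
      (((n.choose k : ℝ)) * 2 ^ k) ^ m := by
    intro v
    have h1 := sum_ind (k := k) (m := m) ({v} : Finset (Fin (n + 1)))
    simp only [Finset.card_singleton, Nat.add_sub_cancel, Finset.disjoint_singleton_right] at h1
    rw [← h1]
    rfl
  simp only [h]
  simp

/-- Second moment of the number of untouched variables. -/
lemma sum_untouched_sq {m : ℕ} :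
    ∑ F : Fin m → ProperClause k (n + 1), (untouched F : ℝ) ^ 2 =
      (n + 1) * (((n.choose k : ℝ) * 2 ^ k) ^ m + n * (((n - 1).choose k : ℝ) * 2 ^ k) ^ m) := by
  classical
  have h0 : ∀ F : Fin m → ProperClause k (n + 1), (untouched F : ℝ) ^ 2 =
      ∑ v, ∑ w, (if ∀ i, Disjoint (F i).1.1 {v, w} then (1 : ℝ) else 0) := by
    intro F
    rw [untouched_eq, sq, Finset.sum_mul_sum]
    exact Finset.sum_congr rfl (fun v _ => Finset.sum_congr rfl (fun w _ => ind_mul F v w))
  simp only [h0]
  rw [Finset.sum_comm]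
  have h1 : ∀ v : Fin (n + 1), ∑ F : Fin m → ProperClause k (n + 1), ∑ w,
      (if ∀ i, Disjoint (F i).1.1 {v, w} then (1 : ℝ) else 0) =
      ((n.choose k : ℝ) * 2 ^ k) ^ m + n * (((n - 1).choose k : ℝ) * 2 ^ k) ^ m := by
    intro v
    rw [Finset.sum_comm]
    simp only [sum_ind]
    rw [← Finset.add_sum_erase _ _ (Finset.mem_univ v)]
    congr 1
    · simp
    · have h2 : ∀ w ∈ (Finset.univ.erase v : Finset (Fin (n + 1))),
          ((((n + 1 - ({v, w} : Finset (Fin (n + 1))).card).choose k : ℝ)) * 2 ^ k) ^ m =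
            (((n - 1).choose k : ℝ) * 2 ^ k) ^ m := by
        intro w hw
        have hne : v ≠ w := (Finset.ne_of_mem_erase hw).symm
        rw [Finset.card_pair hne]
        have : n + 1 - 2 = n - 1 := by omega
        rw [this]
      rw [Finset.sum_congr rfl h2, Finset.sum_const, Finset.card_erase_of_mem (Finset.mem_univ v)]
      simp
  simp only [h1]
  simp
  ring

/-- Joint moment with satisfiability. -/
lemma sum_sat_untouched {m : ℕ} :
    ∑ F : Fin m → ProperClause k (n + 1),
      ((open Classical in if FormulaSat F then (1 : ℝ) else 0) * (untouched F : ℝ)) =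
      (n + 1) * (S k n m : ℝ) := by
  classical
  simp only [untouched_eq, Finset.mul_sum]
  rw [Finset.sum_comm]
  have h : ∀ v : Fin (n + 1), ∑ F : Fin m → ProperClause k (n + 1),
      ((if FormulaSat F then (1 : ℝ) else 0) * ind F v) = (S k n m : ℝ) := by
    intro v
    have h1 := card_sat_avoid (k := k) (n := n) (m := m) v
    rw [← h1, Nat.card_eq_fintype_card, Fintype.card_subtype]
    have h2 : ∀ F : Fin m → ProperClause k (n + 1),
        ((if FormulaSat F then (1 : ℝ) else 0) * ind F v) =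
          (if FormulaSat F ∧ ∀ i, v ∉ (F i).1.1 then (1 : ℝ) else 0) := by
      intro F
      unfold ind
      by_cases h3 : FormulaSat F <;> by_cases h4 : ∀ i, v ∉ (F i).1.1 <;> simp [h3, h4]
    simp only [h2]
    rw [Finset.sum_boole]
  simp only [h]
  simp

lemma sum_sat {m : ℕ} :
    ∑ F : Fin m → ProperClause k N, (open Classical in if FormulaSat F then (1 : ℝ) else 0) =
      (S k N m : ℝ) := by
  classical
  rw [Finset.sum_boole]
  unfold S
  rw [Nat.card_eq_fintype_card, Fintype.card_subtype]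

lemma choose_log_concave (hk : 1 ≤ k) (hkn : k ≤ n) :
    ((n - 1).choose k : ℝ) * ((n + 1).choose k : ℝ) ≤ (n.choose k : ℝ) ^ 2 := by
  have hn : 1 ≤ n := hk.trans hkn
  obtain ⟨p, rfl⟩ : ∃ p, n = p + 1 := ⟨n - 1, by omega⟩
  simp only [Nat.add_sub_cancel]
  have h1 : (p + 1).choose k * (p + 1 + 1) = (p + 1 + 1).choose k * (p + 1 + 1 - k) :=
    Nat.choose_mul_succ_eq (p + 1) k
  have h2 : p.choose k * (p + 1) = (p + 1).choose k * (p + 1 - k) :=
    Nat.choose_mul_succ_eq p k
  have hk1 : k ≤ p + 1 + 1 := by omega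
  have hk2 : k ≤ p + 1 := by omega
  have h1' : ((p + 1).choose k : ℝ) * ((p : ℝ) + 2) =
      ((p + 2).choose k : ℝ) * ((p : ℝ) + 2 - k) := by
    have : (((p + 1).choose k * (p + 1 + 1) : ℕ) : ℝ) =
        (((p + 1 + 1).choose k * (p + 1 + 1 - k) : ℕ) : ℝ) := by exact_mod_cast h1
    rw [Nat.cast_mul, Nat.cast_mul, Nat.cast_sub hk1] at this
    push_cast at this
    linarith
  have h2' : (p.choose k : ℝ) * ((p : ℝ) + 1) =
      ((p + 1).choose k : ℝ) * ((p : ℝ) + 1 - k) := by
    have : ((p.choose k * (p + 1) : ℕ) : ℝ) =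
        (((p + 1).choose k * (p + 1 - k) : ℕ) : ℝ) := by exact_mod_cast h2
    rw [Nat.cast_mul, Nat.cast_mul, Nat.cast_sub hk2] at this
    push_cast at this
    linarith
  set c : ℝ := ((p + 1).choose k : ℝ) with hc
  set a : ℝ := (p.choose k : ℝ) with ha
  set b : ℝ := ((p + 2).choose k : ℝ) with hb
  have hkr : (k : ℝ) ≤ (p : ℝ) + 1 := by exact_mod_cast hk2
  have hk1r : (1 : ℝ) ≤ k := by exact_mod_cast hk
  have hc0 : 0 ≤ c := by positivity
  have hpos : 0 < ((p : ℝ) + 1) * ((p : ℝ) + 2 - k) := by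
    have : 0 < (p : ℝ) + 2 - k := by linarith
    positivity
  have key : (a * b) * (((p : ℝ) + 1) * ((p : ℝ) + 2 - k)) ≤
      c ^ 2 * (((p : ℝ) + 1) * ((p : ℝ) + 2 - k)) := by
    have e1 : (a * b) * (((p : ℝ) + 1) * ((p : ℝ) + 2 - k)) =
        (a * ((p : ℝ) + 1)) * (b * ((p : ℝ) + 2 - k)) := by ring
    rw [e1, h2', ← h1']
    have e2 : c * ((p : ℝ) + 1 - k) * (c * ((p : ℝ) + 2)) =
        c ^ 2 * (((p : ℝ) + 1 - k) * ((p : ℝ) + 2)) := by ring
    rw [e2]
    apply mul_le_mul_of_nonneg_left _ (by positivity)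
    nlinarith
  exact le_of_mul_le_mul_right key hpos

/-- The abstract second moment computation behind the stability inequality. -/
lemma core_moment {Ω : Type} [Fintype Ω] (U I : Ω → ℝ) {T μ : ℝ} (hT : 0 < T) (hμ : 0 < μ)
    (hcard : (Fintype.card Ω : ℝ) = T) (hI : ∀ F, I F = 0 ∨ I F = 1)
    (hU1 : ∑ F, U F = μ * T) (hU2 : ∑ F, (U F) ^ 2 ≤ μ * T + T * μ ^ 2) :
    (∑ F, I F * U F / μ - ∑ F, I F) ^ 2 ≤ T ^ 2 * (1 / (4 * μ)) := by
  have hcardΩ : ∑ _F : Ω, (1 : ℝ) = T := by
    rw [Finset.sum_const, Finset.card_univ, nsmul_eq_mul, mul_one, hcard]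
  let X : Ω → ℝ := fun F => U F / μ - 1
  have hX0 : ∑ F, X F = 0 := by
    simp only [X]
    rw [Finset.sum_sub_distrib, ← Finset.sum_div, hU1, hcardΩ]
    field_simp
    ring
  have hX2 : ∑ F, (X F) ^ 2 ≤ T / μ := by
    have e : ∀ F, (X F) ^ 2 = (U F) ^ 2 / μ ^ 2 - 2 * (U F) / μ + 1 := by
      intro F
      simp only [X]
      field_simp
      ring
    simp only [e]
    rw [Finset.sum_add_distrib, Finset.sum_sub_distrib, ← Finset.sum_div, ← Finset.sum_div,
      ← Finset.mul_sum, hU1, hcardΩ]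
    have e1 : 2 * (μ * T) / μ = 2 * T := by
      field_simp
    rw [e1]
    have e2 : (∑ F, (U F) ^ 2) / μ ^ 2 ≤ T / μ + T := by
      rw [div_le_iff₀ (by positivity)]
      have e3 : (T / μ + T) * μ ^ 2 = μ * T + T * μ ^ 2 := by
        field_simp
      rw [e3]
      exact hU2
    linarith
  have hdiff : ∑ F, (I F * X F) = ∑ F, I F * U F / μ - ∑ F, I F := by
    simp only [X]
    rw [← Finset.sum_sub_distrib]
    refine Finset.sum_congr rfl (fun F _ => ?_)
    field_simp
  have hcs : (∑ F, (I F - 1 / 2) * X F) ^ 2 ≤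
      (∑ F, (I F - 1 / 2) ^ 2) * ∑ F, (X F) ^ 2 :=
    Finset.sum_mul_sq_le_sq_mul_sq _ _ _
  have hf1 : ∑ F, (I F - 1 / 2) * X F = ∑ F, I F * X F := by
    have e : ∀ F, (I F - 1 / 2) * X F = I F * X F - 1 / 2 * X F := by
      intro F
      ring
    simp only [e]
    rw [Finset.sum_sub_distrib, ← Finset.mul_sum, hX0]
    simp
  have hf2 : ∑ F, (I F - 1 / 2) ^ 2 = T / 4 := by
    have e : ∀ F, (I F - 1 / 2) ^ 2 = (1 / 4 : ℝ) := by
      intro F
      rcases hI F with h | h <;> rw [h] <;> norm_num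
    simp only [e]
    rw [Finset.sum_const, Finset.card_univ, nsmul_eq_mul, hcard]
    ring
  rw [hf1, hdiff, hf2] at hcs
  refine hcs.trans ?_
  have h8 : T / 4 * (T / μ) = T ^ 2 * (1 / (4 * μ)) := by
    field_simp
  rw [← h8]
  exact mul_le_mul_of_nonneg_left hX2 (by positivity)

/-- Main inequality in squared form. -/
lemma sq_diff_le (hk : 1 ≤ k) (hkn : k ≤ n) (m : ℕ) :
    (satProb k (n + 1) m - satProb k n m) ^ 2 * (4 * (((n : ℝ) + 1) * (1 - (k : ℝ) / (n + 1)) ^ m)) ≤ 1 := by
  classical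
  set M : ℝ := (Fintype.card (ProperClause k (n + 1)) : ℝ) with hM
  set M1 : ℝ := (Fintype.card (ProperClause k n) : ℝ) with hM1
  set M2 : ℝ := (((n - 1).choose k : ℝ) * 2 ^ k) with hM2
  have hM1eq : M1 = (n.choose k : ℝ) * 2 ^ k := by
    rw [hM1, card_clause]
    push_cast
    ring
  have hMeq : M = ((n + 1).choose k : ℝ) * 2 ^ k := by
    rw [hM, card_clause]
    push_cast
    ring
  have hM1pos : 0 < M1 := by
    rw [hM1]
    exact_mod_cast card_pos_of_le hkn
  have hMpos : 0 < M := by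
    rw [hM]
    exact_mod_cast card_pos_of_le (by omega : k ≤ n + 1)
  have hM2nn : 0 ≤ M2 := by positivity
  have hlc : M2 * M ≤ M1 ^ 2 := by
    rw [hM2, hMeq, hM1eq]
    have := choose_log_concave hk hkn
    have h2 : (0 : ℝ) ≤ 2 ^ k * 2 ^ k := by positivity
    calc ((n - 1).choose k : ℝ) * 2 ^ k * (((n + 1).choose k : ℝ) * 2 ^ k)
        = (((n - 1).choose k : ℝ) * ((n + 1).choose k : ℝ)) * (2 ^ k * 2 ^ k) := by ring
      _ ≤ (n.choose k : ℝ) ^ 2 * (2 ^ k * 2 ^ k) := mul_le_mul_of_nonneg_right this h2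
      _ = _ := by ring
  have hratio : M1 / M = 1 - (k : ℝ) / (n + 1) := ratio_succ hkn
  set T : ℝ := M ^ m with hT
  have hTpos : 0 < T := by positivity
  set μ : ℝ := ((n : ℝ) + 1) * (1 - (k : ℝ) / (n + 1)) ^ m with hμ
  have hμ2 : μ * T = ((n : ℝ) + 1) * M1 ^ m := by
    rw [hμ, ← hratio, div_pow, hT]
    field_simp
  have hμpos : 0 < μ := by
    have h0 : 0 < μ * T := by
      rw [hμ2]
      positivity
    exact (pos_iff_pos_of_mul_pos h0).2 hTpos
  have hcard : ((Fintype.card (Fin m → ProperClause k (n + 1)) : ℕ) : ℝ) = T := by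
    rw [hT, hM]
    simp [Fintype.card_pi]
  have hU1 : ∑ F : Fin m → ProperClause k (n + 1), (untouched F : ℝ) = μ * T := by
    have := sum_untouched (k := k) (n := n) (m := m)
    rw [hμ2, hM1eq]
    exact this
  have hU2 : ∑ F : Fin m → ProperClause k (n + 1), (untouched F : ℝ) ^ 2 ≤ μ * T + T * μ ^ 2 := by
    have h1 := sum_untouched_sq (k := k) (n := n) (m := m)
    rw [h1, ← hM1eq, ← hM2, mul_add, ← hμ2]
    have hq : ((n : ℝ) + 1) * (n * M2 ^ m) ≤ T * μ ^ 2 := by
      have hμ3 : T * (T * μ ^ 2) = ((n : ℝ) + 1) ^ 2 * (M1 ^ m) ^ 2 := by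
        have e5 : ((n : ℝ) + 1) ^ 2 * (M1 ^ m) ^ 2 = (((n : ℝ) + 1) * M1 ^ m) ^ 2 := by ring
        rw [e5, ← hμ2]
        ring
      have hp : M2 ^ m * T ≤ (M1 ^ m) ^ 2 := by
        rw [hT, ← mul_pow, ← pow_mul, mul_comm m 2, pow_mul]
        exact pow_le_pow_left₀ (by positivity) hlc m
      have hn0 : (0 : ℝ) ≤ n := by positivity
      have hbig : T * (((n : ℝ) + 1) * (n * M2 ^ m)) ≤ T * (T * μ ^ 2) := by
        rw [hμ3]
        calc T * (((n : ℝ) + 1) * (n * M2 ^ m)) = ((n : ℝ) + 1) * n * (M2 ^ m * T) := by ring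
          _ ≤ ((n : ℝ) + 1) * n * (M1 ^ m) ^ 2 :=
            mul_le_mul_of_nonneg_left hp (by positivity)
          _ ≤ ((n : ℝ) + 1) ^ 2 * (M1 ^ m) ^ 2 := by
            apply mul_le_mul_of_nonneg_right _ (by positivity)
            nlinarith
      exact le_of_mul_le_mul_left hbig hTpos
    linarith
  have hcore := core_moment (fun F : Fin m → ProperClause k (n + 1) => (untouched F : ℝ))
    (fun F => if FormulaSat F then (1 : ℝ) else 0) hTpos hμpos hcard
    (fun F => by by_cases h : FormulaSat F <;> simp [h]) hU1 hU2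
  have hUI : ∑ F : Fin m → ProperClause k (n + 1),
      ((if FormulaSat F then (1 : ℝ) else 0) * (untouched F : ℝ)) = ((n : ℝ) + 1) * (S k n m : ℝ) := by
    have := sum_sat_untouched (k := k) (n := n) (m := m)
    exact this
  have hI : ∑ F : Fin m → ProperClause k (n + 1), (if FormulaSat F then (1 : ℝ) else 0) =
      (S k (n + 1) m : ℝ) := by
    have := sum_sat (k := k) (N := n + 1) (m := m)
    exact this
  rw [← Finset.sum_div, hUI, hI] at hcore
  have hP1 : satProb k n m = (S k n m : ℝ) / M1 ^ m := satProb_eq k n m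
  have hP2 : satProb k (n + 1) m = (S k (n + 1) m : ℝ) / T := satProb_eq k (n + 1) m
  have hval : ((n : ℝ) + 1) * (S k n m : ℝ) / μ - (S k (n + 1) m : ℝ) =
      T * (satProb k n m - satProb k (n + 1) m) := by
    rw [hP1, hP2]
    have hμ4 : μ = ((n : ℝ) + 1) * M1 ^ m / T := by
      field_simp
      linarith
    rw [hμ4]
    field_simp
  rw [hval] at hcore
  have h7 : (T * (satProb k n m - satProb k (n + 1) m)) ^ 2 =
      T ^ 2 * (satProb k (n + 1) m - satProb k n m) ^ 2 := by ring
  rw [h7] at hcore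
  have h6 : (satProb k (n + 1) m - satProb k n m) ^ 2 ≤ 1 / (4 * μ) :=
    le_of_mul_le_mul_left hcore (by positivity)
  rw [le_div_iff₀ (by positivity)] at h6
  linarith

/-- The explicit stability inequality in the number of variables. -/
theorem abs_diff_le (hk : 1 ≤ k) (hkn : k ≤ n) (m : ℕ) :
    |satProb k (n + 1) m - satProb k n m| ≤
      1 / (2 * Real.sqrt (((n : ℝ) + 1) * (1 - (k : ℝ) / (n + 1)) ^ m)) := by
  have h := sq_diff_le hk hkn m
  set μ : ℝ := ((n : ℝ) + 1) * (1 - (k : ℝ) / (n + 1)) ^ m with hμ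
  have hpos : 0 < 1 - (k : ℝ) / (n + 1) := by
    have h1 : (k : ℝ) ≤ n := by exact_mod_cast hkn
    have h2 : (k : ℝ) / (n + 1) < 1 := by
      rw [div_lt_one (by positivity)]
      linarith
    linarith
  have hμpos : 0 < μ := by positivity
  have hs : 0 < Real.sqrt μ := Real.sqrt_pos.2 hμpos
  rw [le_div_iff₀ (by positivity)]
  have h2 : (|satProb k (n + 1) m - satProb k n m| * (2 * Real.sqrt μ)) ^ 2 ≤ 1 ^ 2 := by
    rw [mul_pow, sq_abs, mul_pow, Real.sq_sqrt hμpos.le]
    calc (satProb k (n + 1) m - satProb k n m) ^ 2 * (2 ^ 2 * μ)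
        = (satProb k (n + 1) m - satProb k n m) ^ 2 * (4 * μ) := by ring
      _ ≤ 1 := h
      _ = 1 ^ 2 := by norm_num
  exact (abs_le_of_sq_le_sq' h2 (by norm_num)).2

end Vale.Agent.Lib.P170
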